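import Vale.Agent.P002.Defs

/-! P002: auxiliary definitions. -/

namespace Vale.Agent.P002

open Matrix

/-- Polynomial functions. -/
def PF (σ : Type) : Subalgebra ℂ ((σ → ℂ) → ℂ) :=
  Algebra.adjoin ℂ (Set.range fun (i : σ) (x : σ → ℂ) => x i)

/-- Polynomial functions of a family of points. -/
def PF2 (α σ : Type) : Subalgebra ℂ ((α → σ → ℂ) → ℂ) :=
  Algebra.adjoin ℂ (Set.range fun (a : α × σ) (x : α → σ → ℂ) => x a.1 a.2)

/-- Zariski closure. -/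
def cl {σ : Type} (S : Set (σ → ℂ)) (x : σ → ℂ) : Prop :=
  ∀ f ∈ PF σ, (∀ s ∈ S, f s = 0) → f x = 0

theorem cl_mono {σ : Type} {S S' : Set (σ → ℂ)} (h : S ⊆ S') {x : σ → ℂ} (hx : cl S x) :
    cl S' x := fun f hf h0 => hx f hf fun s hs => h0 s (h hs)

/-- Monomial. -/
noncomputable def mono {N : Type} [Fintype N] (t : N → ℂ) (μ : N → ℤ) : ℂ := ∏ x, t x ^ μ x

/-- A unit of infinite order in `O`. -/
structure Ar (O : Subring ℂ) (ε : ℂ) : Prop where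
  lt : 1 < ‖ε‖
  mem : ε ∈ O
  inv : ε⁻¹ ∈ O

/-- Matrix from coordinates. -/
def Mx {r : ℕ} (x : Fin r × Fin r → ℂ) : Matrix (Fin r) (Fin r) ℂ := Matrix.of fun i j => x (i, j)

/-- Coordinates of a matrix. -/
def ent {r : ℕ} (A : Matrix (Fin r) (Fin r) ℂ) : Fin r × Fin r → ℂ := fun a => A a.1 a.2

theorem Mx_ent {r : ℕ} (A : Matrix (Fin r) (Fin r) ℂ) : Mx (ent A) = A := rfl

theorem ent_Mx {r : ℕ} (x : Fin r × Fin r → ℂ) : ent (Mx x) = x := rfl

/-- Block supported matrices of determinant one. -/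
def Gc {r : ℕ} {K : Type} (col : Fin r → K) (A : Matrix (Fin r) (Fin r) ℂ) : Prop :=
  A.det = 1 ∧ ∀ i j, col i ≠ col j → A i j = 0

/-- The monomial equations on the eigenvalues. -/
def H {k m r : ℕ} (p : Fin m → ℕ) (c : Fin m → Fin k → ℤ) (T : Set (Fin k → ℤ))
    (col : Fin r → Fin r) (t : (Fin k ⊕ Fin m) × Fin r → ℂ) : Prop :=
  (∀ l i i', col i = col i' → t (Sum.inl l, i) = t (Sum.inl l, i')) ∧
  (∀ g, ∏ i, t (g, i) = 1) ∧
  (∀ j i, t (Sum.inr j, i) ^ p j = ∏ l, t (Sum.inl l, i) ^ c j l) ∧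
  ∀ τ ∈ T, ∀ i, ∏ l, t (Sum.inl l, i) ^ τ l = 1

/-- Exponent vector of `z^τ` at index `i`. -/
def ev {k r : ℕ} (m : ℕ) (i : Fin r) (τ : Fin k → ℤ) : (Fin k ⊕ Fin m) × Fin r → ℤ
  | (Sum.inl l, i') => if i' = i then τ l else 0
  | (Sum.inr _, _) => 0

/-- The matrices of the generators. -/
noncomputable def mats {k m r : ℕ} (p : Fin m → ℕ) (t : (Fin k ⊕ Fin m) × Fin r → ℂ)
    (G : Option (Fin m) → Fin r × Fin r → ℂ) : Fin k ⊕ Fin m → Matrix (Fin r) (Fin r) ℂ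
  | Sum.inl l => Mx (G none) * diagonal (fun i => t (Sum.inl l, i)) * (Mx (G none)).adjugate
  | Sum.inr j => Mx (G none) * (if p j = 0 then Mx (G (some j)) else
      Mx (G (some j)) * diagonal (fun i => t (Sum.inr j, i)) * (Mx (G (some j))).adjugate) *
      (Mx (G none)).adjugate

end Vale.Agent.P002
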