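import Mathlib

/-! P002: definitions used in the statement. -/

namespace Vale.Agent.P002

open Matrix

/-- The word `z_1^(c 1) ⋯ z_k^(c k)` in the first `k` generators. -/
def zw {k : ℕ} (m : ℕ) (c : Fin k → ℤ) : FreeGroup (Fin k ⊕ Fin m) :=
  (List.ofFn fun l => FreeGroup.of (Sum.inl l : Fin k ⊕ Fin m) ^ c l).prod

/-- Relators: each `z_l` commutes with every generator, `x_j^(p j) = z^(c j)`, `z^τ = 1` for `τ ∈ T`. -/
def rels {k m : ℕ} (p : Fin m → ℕ) (c : Fin m → Fin k → ℤ) (T : Set (Fin k → ℤ)) :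
    Set (FreeGroup (Fin k ⊕ Fin m)) :=
  {w | (∃ l g, w = FreeGroup.of (Sum.inl l) * FreeGroup.of g * (FreeGroup.of (Sum.inl l))⁻¹ *
      (FreeGroup.of g)⁻¹) ∨
    (∃ j, w = FreeGroup.of (Sum.inr j) ^ p j * (zw m (c j))⁻¹) ∨ ∃ τ ∈ T, w = zw m τ}

/-- Every invariant subspace has an invariant complement. -/
def Semisimple {Γ : Type} [Group Γ] {r : ℕ} (ρ : Γ →* SpecialLinearGroup (Fin r) ℂ) : Prop :=
  ∀ W : Submodule ℂ (Fin r → ℂ), (∀ g, ∀ v ∈ W, (ρ g).1 *ᵥ v ∈ W) →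
    ∃ W' : Submodule ℂ (Fin r → ℂ), (∀ g, ∀ v ∈ W', (ρ g).1 *ᵥ v ∈ W') ∧ IsCompl W W'

/-- All matrix entries of `ρ` are algebraic integers lying in `L`. -/
def IntegralIn {Γ : Type} [Group Γ] {r : ℕ} (L : IntermediateField ℚ ℂ)
    (ρ : Γ →* SpecialLinearGroup (Fin r) ℂ) : Prop :=
  ∀ g i j, (ρ g).1 i j ∈ L ∧ IsIntegral ℤ ((ρ g).1 i j)

/-- All eigenvalues are roots of unity. -/
def QuasiUnip {r : ℕ} (C : SpecialLinearGroup (Fin r) ℂ) : Prop :=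
  ∀ μ : ℂ, C.1.charpoly.IsRoot μ → ∃ n : ℕ, 0 < n ∧ μ ^ n = 1

end Vale.Agent.P002
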