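import Vale.Agent.P002.Diag1

namespace Vale.Agent.P002

open Matrix

theorem Diag_res_mul {r : ℕ} {K : Type} [DecidableEq K] (col : Fin r → K)
    (A B : Matrix (Fin r) (Fin r) ℂ)
    (hA : ∀ i j, col i ≠ col j → A i j = 0) (κ : K) :
    (A * B).toSquareBlock col κ = A.toSquareBlock col κ * B.toSquareBlock col κ := by
  ext i j
  simp only [toSquareBlock_def, Matrix.mul_apply, of_apply]
  rw [← Finset.sum_subtype (Finset.univ.filter fun k => col k = κ) (by simp)
    (fun k => A i k * B k j)]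
  rw [Finset.sum_filter]
  refine Finset.sum_congr rfl fun k _ => ?_
  split_ifs with h
  · rfl
  · rw [hA _ _ (by rw [i.2]; exact fun e => h e.symm), zero_mul]

theorem Diag_blk_mul {r : ℕ} {K : Type} (col : Fin r → K)
    (A B : Matrix (Fin r) (Fin r) ℂ)
    (hA : ∀ i j, col i ≠ col j → A i j = 0) (hB : ∀ i j, col i ≠ col j → B i j = 0) :
    ∀ i j, col i ≠ col j → (A * B) i j = 0 := by
  intro i j h
  rw [Matrix.mul_apply]
  refine Finset.sum_eq_zero fun k _ => ?_
  by_cases e : col i = col k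
  · rw [hB k j (e ▸ h), mul_zero]
  · rw [hA i k e, zero_mul]

theorem Diag_res_pow {r : ℕ} {K : Type} [DecidableEq K] (col : Fin r → K)
    (A : Matrix (Fin r) (Fin r) ℂ)
    (hA : ∀ i j, col i ≠ col j → A i j = 0) (κ : K) (n : ℕ) :
    (A ^ n).toSquareBlock col κ = A.toSquareBlock col κ ^ n := by
  induction n with
  | zero =>
    ext i j
    simp only [pow_zero, toSquareBlock_def, of_apply, Matrix.one_apply, Subtype.ext_iff]
  | succ n ih => rw [pow_succ', pow_succ', Diag_res_mul col _ _ hA, ih]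

theorem Diag_each {r : ℕ} {K : Type} [DecidableEq K] (col : Fin r → K)
    {X : Matrix (Fin r) (Fin r) ℂ}
    (hX : ∀ i j, col i ≠ col j → X i j = 0) {p : ℕ} (hp : p ≠ 0) {δ : Fin r → ℂ}
    (h0 : ∀ i, δ i ≠ 0)
    (hδ : ∀ i j, col i = col j → δ i = δ j) (hpow : X ^ p = diagonal δ) (κ : K) :
    ∃ (G : Matrix {i // col i = κ} {i // col i = κ} ℂ) (D : {i // col i = κ} → ℂ),
      G.det = 1 ∧ X.toSquareBlock col κ * G = G * diagonal D := by
  have key : ∃ a : ℂ, a ≠ 0 ∧ X.toSquareBlock col κ ^ p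
      = a • (1 : Matrix {i // col i = κ} {i // col i = κ} ℂ) := by
    rw [← Diag_res_pow col X hX, hpow]
    by_cases h : ∃ i, col i = κ
    · obtain ⟨i0, hi0⟩ := h
      refine ⟨δ i0, h0 i0, ?_⟩
      ext i j
      simp only [toSquareBlock_def, of_apply, Matrix.smul_apply, Matrix.one_apply,
        Matrix.diagonal_apply, Subtype.ext_iff, smul_eq_mul]
      split_ifs with e
      · rw [mul_one]; exact hδ _ _ (i.2.trans hi0.symm)
      · rw [mul_zero]
    · refine ⟨1, one_ne_zero, ?_⟩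
      ext i j
      exact absurd ⟨i.1, i.2⟩ h
  obtain ⟨a, ha, hXa⟩ := key
  obtain ⟨G, D, hG, hXG⟩ := diag_one _ hp ha hXa
  refine ⟨G, D, hG, ?_⟩
  rw [hXG, Matrix.mul_assoc, Matrix.adjugate_mul, hG, one_smul, Matrix.mul_one]

theorem diag_blk {r : ℕ} {K : Type} (col : Fin r → K) {X : Matrix (Fin r) (Fin r) ℂ}
    (hX : Gc col X) {p : ℕ} (hp : p ≠ 0) {δ : Fin r → ℂ} (h0 : ∀ i, δ i ≠ 0)
    (hδ : ∀ i j, col i = col j → δ i = δ j) (hpow : X ^ p = diagonal δ) :
    ∃ (g : Matrix (Fin r) (Fin r) ℂ) (d : Fin r → ℂ), Gc col g ∧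
      X = g * diagonal d * g.adjugate ∧ ∏ i, d i = 1 ∧ ∀ i, d i ^ p = δ i := by
  obtain ⟨lo, -⟩ := exists_wellFoundedLT K
  obtain ⟨hX1, hX2⟩ := hX
  choose G D hG hXG using Diag_each col hX2 hp h0 hδ hpow
  obtain ⟨g, hg⟩ : ∃ g : Matrix (Fin r) (Fin r) ℂ,
      g = of fun i j => if h : col i = col j then G (col j) ⟨i, h⟩ ⟨j, rfl⟩ else 0 := ⟨_, rfl⟩
  obtain ⟨d, hd⟩ : ∃ d : Fin r → ℂ, d = fun j => D (col j) ⟨j, rfl⟩ := ⟨_, rfl⟩
  have hgb : ∀ i j, col i ≠ col j → g i j = 0 := by
    intro i j h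
    rw [hg, of_apply, dif_neg h]
  have hgr : ∀ κ, g.toSquareBlock col κ = G κ := by
    intro κ
    ext ⟨i, hi⟩ ⟨j, hj⟩
    subst hj
    rw [toSquareBlock_def, of_apply, hg, of_apply, dif_pos hi]
  have hdb : ∀ i j, col i ≠ col j → diagonal d i j = 0 := by
    intro i j h
    exact diagonal_apply_ne _ (fun e => h (by rw [e]))
  have hdr : ∀ κ, (diagonal d).toSquareBlock col κ = diagonal (D κ) := by
    intro κ
    ext ⟨i, hi⟩ ⟨j, hj⟩
    subst hi
    simp only [toSquareBlock_def, of_apply, Matrix.diagonal_apply, Subtype.ext_iff, hd]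
  have hdet : g.det = 1 := by
    have hbt : g.BlockTriangular col := fun i j h => hgb i j (ne_of_gt h)
    rw [hbt.det]
    refine Finset.prod_eq_one fun κ _ => ?_
    rw [hgr]
    exact hG κ
  have hXg : X * g = g * diagonal d := by
    ext i j
    by_cases h : col i = col j
    · have e : (X * g).toSquareBlock col (col j) = (g * diagonal d).toSquareBlock col (col j) := by
        rw [Diag_res_mul col _ _ hX2, Diag_res_mul col _ _ hgb, hgr, hdr, hXG]
      exact congrFun (congrFun e ⟨i, h⟩) ⟨j, rfl⟩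
    · rw [Diag_blk_mul col _ _ hX2 hgb i j h, Diag_blk_mul col _ _ hgb hdb i j h]
  have hXe : X = g * diagonal d * g.adjugate := by
    rw [← hXg, Matrix.mul_assoc, Matrix.mul_adjugate, hdet, one_smul, Matrix.mul_one]
  refine ⟨g, d, ⟨hdet, hgb⟩, hXe, ?_, ?_⟩
  · have e := congrArg Matrix.det hXg
    rw [det_mul, det_mul, hX1, hdet, det_diagonal, one_mul, one_mul] at e
    exact e.symm
  · have hn : ∀ n : ℕ, X ^ n * g = g * diagonal d ^ n := by
      intro n
      induction n with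
      | zero => simp
      | succ n ih => rw [pow_succ', Matrix.mul_assoc, ih, ← Matrix.mul_assoc, hXg,
          Matrix.mul_assoc, ← pow_succ']
    have hc : diagonal δ * g = g * diagonal δ := by
      ext i j
      rw [diagonal_mul, mul_diagonal]
      by_cases h : col i = col j
      · rw [hδ i j h, mul_comm]
      · rw [hgb i j h, mul_zero, zero_mul]
    have e1 : g * diagonal d ^ p = g * diagonal δ := by rw [← hn, hpow, hc]
    have e2 : diagonal d ^ p = diagonal δ := by
      have e3 := congrArg (fun M => g.adjugate * M) e1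
      simp only [← Matrix.mul_assoc, Matrix.adjugate_mul, hdet, one_smul, Matrix.one_mul] at e3
      exact e3
    intro i
    rw [diagonal_pow] at e2
    have e4 := congrFun (congrFun e2 i) i
    simpa using e4

end Vale.Agent.P002
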