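import Vale.Agent.P002.Base

namespace Vale.Agent.P002

open Matrix

theorem diag_one {ι : Type} [Fintype ι] [DecidableEq ι] (X : Matrix ι ι ℂ) {p : ℕ} (hp : p ≠ 0)
    {a : ℂ} (ha : a ≠ 0) (hX : X ^ p = a • (1 : Matrix ι ι ℂ)) :
    ∃ (g : Matrix ι ι ℂ) (d : ι → ℂ), g.det = 1 ∧ X = g * diagonal d * g.adjugate := by
  rcases isEmpty_or_nonempty ι with hι | hι
  · exact ⟨1, fun _ => 0, Matrix.det_one, Subsingleton.elim _ _⟩
  have hss : Module.End.IsSemisimple (Matrix.toLin' X) := by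
    refine Module.End.isSemisimple_of_squarefree_aeval_eq_zero
      (p := Polynomial.X ^ p - Polynomial.C a)
      (Polynomial.separable_X_pow_sub_C a (by exact_mod_cast hp) ha).squarefree ?_
    rw [map_sub, map_pow, Polynomial.aeval_X, Polynomial.aeval_C, ← Matrix.toLin'_pow, hX,
      map_smul, Matrix.toLin'_one, Algebra.algebraMap_eq_smul_one]
    exact sub_self _
  have htop := hss.iSup_eigenspace_eq_top
  have hspan : Submodule.span ℂ {v : ι → ℂ | ∃ μ : ℂ, X *ᵥ v = μ • v} = ⊤ := by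
    rw [eq_top_iff, ← htop]
    refine iSup_le fun μ v hv => Submodule.subset_span ⟨μ, ?_⟩
    simpa using Module.End.mem_eigenspace_iff.1 hv
  obtain ⟨b, hb, hsp, hli⟩ := exists_linearIndependent ℂ {v : ι → ℂ | ∃ μ : ℂ, X *ᵥ v = μ • v}
  let B : Module.Basis b ℂ (ι → ℂ) := Module.Basis.mk hli (by
    rw [Subtype.range_coe_subtype, Set.setOf_mem_eq, hsp, hspan])
  let e : b ≃ ι := B.indexEquiv (Pi.basisFun ℂ ι)
  have hli' : LinearIndependent ℂ (fun j : ι => ((e.symm j : b) : ι → ℂ)) :=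
    hli.comp e.symm e.symm.injective
  choose d hd using fun j : ι => hb (e.symm j).2
  let g₀ : Matrix ι ι ℂ := Matrix.of fun i j => ((e.symm j : b) : ι → ℂ) i
  have hu : IsUnit g₀ := Matrix.linearIndependent_cols_iff_isUnit.1 hli'
  have hdet : g₀.det ≠ 0 := ((Matrix.isUnit_iff_isUnit_det g₀).1 hu).ne_zero
  have hXg : X * g₀ = g₀ * diagonal d := by
    ext i j
    have := congrFun (hd j) i
    rw [Matrix.mul_diagonal]
    simp only [Matrix.mulVec, dotProduct, Pi.smul_apply, smul_eq_mul] at this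
    simp only [Matrix.mul_apply, g₀, Matrix.of_apply]
    rw [this, mul_comm]
  obtain ⟨s, hs⟩ := IsAlgClosed.exists_pow_nat_eq (g₀.det)⁻¹ (Fintype.card_pos (α := ι))
  have h1 : (s • g₀).det = 1 := by
    rw [Matrix.det_smul, hs, inv_mul_cancel₀ hdet]
  refine ⟨s • g₀, d, h1, ?_⟩
  have h2 : (s • g₀) * diagonal d = X * (s • g₀) := by
    rw [Matrix.smul_mul, Matrix.mul_smul, hXg]
  rw [h2, Matrix.mul_assoc, Matrix.mul_adjugate, h1, one_smul, Matrix.mul_one]

end Vale.Agent.P002
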