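import Vale.Agent.P002.Base

namespace Vale.Agent.P002

open Matrix

theorem mono_ev {k m r : ℕ} (t : (Fin k ⊕ Fin m) × Fin r → ℂ) (i : Fin r) (τ : Fin k → ℤ) :
    mono t (ev m i τ) = ∏ l, t (Sum.inl l, i) ^ τ l := by
  unfold mono
  rw [Fintype.prod_prod_type, Fintype.prod_sum_type]
  have h2 : ∏ j : Fin m, ∏ i' : Fin r, t (Sum.inr j, i') ^ ev m i τ (Sum.inr j, i') = 1 := by
    simp [ev]
  rw [h2, mul_one]
  refine Finset.prod_congr rfl fun l _ => ?_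
  rw [Finset.prod_eq_single i]
  · simp [ev]
  · intro i' _ hi
    simp [ev, hi]
  · simp

theorem ev_smul {k r : ℕ} (m : ℕ) (i : Fin r) (n : ℕ) (τ : Fin k → ℤ) :
    ev m i (n • τ) = n • ev m i τ := by
  funext x
  rcases x with ⟨l | j, i'⟩
  · by_cases h : i' = i <;> simp [ev, h]
  · simp [ev]

theorem eqs_mono_sub {N : Type} [Fintype N] {t : N → ℂ} (ht : ∀ x, t x ≠ 0) (μ ν : N → ℤ) :
    mono t (μ - ν) = 1 ↔ mono t μ = mono t ν := by
  have h1 : mono t (μ - ν) = mono t μ / mono t ν := by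
    unfold mono
    rw [← Finset.prod_div_distrib]
    exact Finset.prod_congr rfl fun x _ => zpow_sub₀ (ht x) _ _
  have h2 : mono t ν ≠ 0 := Finset.prod_ne_zero_iff.2 fun x _ => zpow_ne_zero _ (ht x)
  rw [h1, div_eq_one_iff_eq h2]

theorem eqs_mono_single {N : Type} [Fintype N] [DecidableEq N] (t : N → ℂ) (a : N) (n : ℤ) :
    mono t (Pi.single a n) = t a ^ n := by
  unfold mono
  rw [Finset.prod_eq_single a]
  · simp
  · intro b _ hb
    simp [hb]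
  · simp

theorem eqs_mono_row {G I : Type} [Fintype G] [Fintype I] [DecidableEq G] (t : G × I → ℂ) (g : G) :
    mono t (fun x => if x.1 = g then 1 else 0) = ∏ i, t (g, i) := by
  unfold mono
  rw [Fintype.prod_prod_type, Finset.prod_eq_single g]
  · simp
  · intro b _ hb
    simp [hb]
  · simp

theorem eqs {k m r : ℕ} (p : Fin m → ℕ) (c : Fin m → Fin k → ℤ) (T : Set (Fin k → ℤ))
    (col : Fin r → Fin r) : ∃ Λ : Set ((Fin k ⊕ Fin m) × Fin r → ℤ),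
      (∀ t : (Fin k ⊕ Fin m) × Fin r → ℂ, (∀ x, t x ≠ 0) →
        (H p c T col t ↔ ∀ μ ∈ Λ, mono t μ = 1)) ∧ ∀ τ ∈ T, ∀ i, ev m i τ ∈ Λ := by
  classical
  refine ⟨{μ | (∃ l i i', col i = col i' ∧
      μ = Pi.single (Sum.inl l, i) 1 - Pi.single (Sum.inl l, i') 1) ∨
    (∃ g, μ = fun x => if x.1 = g then 1 else 0) ∨
    (∃ j i, μ = Pi.single (Sum.inr j, i) (p j : ℤ) - ev m i (c j)) ∨
    ∃ τ ∈ T, ∃ i, μ = ev m i τ}, fun t ht => ⟨?_, ?_⟩,
    fun τ hτ i => Or.inr (Or.inr (Or.inr ⟨τ, hτ, i, rfl⟩))⟩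
  · rintro ⟨h1, h2, h3, h4⟩ μ (⟨l, i, i', hc, rfl⟩ | ⟨g, rfl⟩ | ⟨j, i, rfl⟩ | ⟨τ, hτ, i, rfl⟩)
    · rw [eqs_mono_sub ht, eqs_mono_single, eqs_mono_single, h1 l i i' hc]
    · rw [eqs_mono_row, h2]
    · rw [eqs_mono_sub ht, eqs_mono_single, mono_ev, zpow_natCast, h3]
    · rw [mono_ev, h4 τ hτ]
  · intro h
    refine ⟨fun l i i' hc => ?_, fun g => ?_, fun j i => ?_, fun τ hτ i => ?_⟩
    · have := h _ (Or.inl ⟨l, i, i', hc, rfl⟩)
      rwa [eqs_mono_sub ht, eqs_mono_single, eqs_mono_single, zpow_one, zpow_one] at this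
    · have := h _ (Or.inr (Or.inl ⟨g, rfl⟩))
      rwa [eqs_mono_row] at this
    · have := h _ (Or.inr (Or.inr (Or.inl ⟨j, i, rfl⟩)))
      rwa [eqs_mono_sub ht, eqs_mono_single, mono_ev, zpow_natCast] at this
    · have := h _ (Or.inr (Or.inr (Or.inr ⟨τ, hτ, i, rfl⟩)))
      rwa [mono_ev] at this

end Vale.Agent.P002
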