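import Vale.Agent.P002.Base

namespace Vale.Agent.P002

open Matrix

/-- block transvections -/
def genS {r : ℕ} {K : Type} (col : Fin r → K) : Set (Matrix (Fin r) (Fin r) ℂ) :=
  {M | ∃ i j s, i ≠ j ∧ col i = col j ∧ M = transvection i j s}

/-- product of block transvections times an invertible diagonal matrix -/
def genQ {r : ℕ} {K : Type} (col : Fin r → K) (A : Matrix (Fin r) (Fin r) ℂ) : Prop :=
  ∃ E ∈ Submonoid.closure (genS col), ∃ d : Fin r → ℂ, (∀ i, d i ≠ 0) ∧ A = E * diagonal d

theorem gen_swap {r : ℕ} {K : Type} (col : Fin r → K) (d : Fin r → ℂ) (hd : ∀ i, d i ≠ 0)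
    {E : Matrix (Fin r) (Fin r) ℂ} (hE : E ∈ Submonoid.closure (genS col)) :
    ∃ E' ∈ Submonoid.closure (genS col), diagonal d * E = E' * diagonal d := by
  induction hE using Submonoid.closure_induction with
  | mem x hx =>
    obtain ⟨i, j, s, h1, h2, rfl⟩ := hx
    refine ⟨transvection i j (s * d i / d j), Submonoid.subset_closure ⟨i, j, _, h1, h2, rfl⟩, ?_⟩
    ext a b
    simp only [diagonal_mul, mul_diagonal, transvection, Matrix.add_apply, Matrix.one_apply,
      Matrix.single_apply]
    have := hd j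
    split_ifs with c1 c2 c2
    · exact absurd (c2.1.trans (c1.trans c2.2.symm)) h1
    · rw [c1, mul_comm]
    · rw [← c2.1, ← c2.2]
      field_simp
      ring
    · simp
  | one => exact ⟨1, one_mem _, by simp⟩
  | mul x y _ _ hx hy =>
    obtain ⟨X, x1, x2⟩ := hx
    obtain ⟨Y, y1, y2⟩ := hy
    exact ⟨X * Y, mul_mem x1 y1, by rw [← mul_assoc, x2, mul_assoc, y2, mul_assoc]⟩

theorem gen_mul {r : ℕ} {K : Type} {col : Fin r → K} {A B : Matrix (Fin r) (Fin r) ℂ}
    (hA : genQ col A) (hB : genQ col B) : genQ col (A * B) := by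
  obtain ⟨E, e1, d, d1, rfl⟩ := hA
  obtain ⟨F, f1, c, c1, rfl⟩ := hB
  obtain ⟨G, g1, g2⟩ := gen_swap col d d1 f1
  refine ⟨E * G, mul_mem e1 g1, fun i => d i * c i, fun i => mul_ne_zero (d1 i) (c1 i), ?_⟩
  rw [mul_assoc, ← mul_assoc (diagonal d), g2, mul_assoc, diagonal_mul_diagonal, mul_assoc]

open Classical in
theorem gen_emb {r : ℕ} {K : Type} (col : Fin r → K) (κ : K)
    (B : Matrix {i // col i = κ} {i // col i = κ} ℂ) (hB : B.det ≠ 0) :
    genQ col ((fromBlocks B 0 0 1).submatrix (Equiv.sumCompl fun i => col i = κ).symm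
      (Equiv.sumCompl fun i => col i = κ).symm) := by
  refine diagonal_transvection_induction_of_det_ne_zero (fun B => genQ col
    ((fromBlocks B 0 0 1).submatrix (Equiv.sumCompl fun i => col i = κ).symm
      (Equiv.sumCompl fun i => col i = κ).symm)) B hB (fun D hD => ?_) (fun t => ?_)
    fun A B _ _ hA hB => ?_
  · rw [det_diagonal, Finset.prod_ne_zero_iff] at hD
    rw [← diagonal_one, fromBlocks_diagonal, submatrix_diagonal_equiv]
    refine ⟨1, one_mem _, _, fun i => ?_, (one_mul _).symm⟩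
    rw [Function.comp_apply]
    rcases (Equiv.sumCompl fun i => col i = κ).symm i with a | a
    · exact hD a (Finset.mem_univ a)
    · exact one_ne_zero
  · rw [← TransvectionStruct.toMatrix_sumInl]
    have := TransvectionStruct.toMatrix_reindexEquiv (Equiv.sumCompl fun i => col i = κ)
      (t.sumInl {i // ¬ col i = κ})
    refine ⟨_, Submonoid.subset_closure ⟨t.i.1, t.j.1, t.c, fun h => t.hij (Subtype.ext h),
      t.i.2.trans t.j.2.symm, rfl⟩, fun _ => 1, fun _ => one_ne_zero, ?_⟩
    rw [diagonal_one, mul_one]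
    exact this.symm
  · have := gen_mul hA hB
    rw [submatrix_mul_equiv, fromBlocks_multiply] at this
    simpa only [Matrix.mul_zero, Matrix.zero_mul, add_zero, zero_add, mul_one] using this

theorem gen_all {r : ℕ} {K : Type} (col : Fin r → K) (s : Finset K) :
    ∀ A : Matrix (Fin r) (Fin r) ℂ, A.det ≠ 0 → (∀ i j, col i ≠ col j → A i j = 0) →
      (∀ i j, col i ∉ s → A i j = (1 : Matrix (Fin r) (Fin r) ℂ) i j) → genQ col A := by
  classical
  induction s using Finset.induction_on with
  | empty =>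
    intro A _ _ h
    refine ⟨1, one_mem _, fun _ => 1, fun _ => one_ne_zero, ?_⟩
    ext i j
    simp [h i j (by simp)]
  | insert κ s _ ih =>
    intro A h0 h1 h2
    obtain ⟨A', hA'⟩ : ∃ A' : Matrix (Fin r) (Fin r) ℂ, A' = Matrix.of fun i j =>
      if col i = κ then (1 : Matrix (Fin r) (Fin r) ℂ) i j else A i j := ⟨_, rfl⟩
    obtain ⟨e, he⟩ : ∃ e, e = Equiv.sumCompl fun i => col i = κ := ⟨_, rfl⟩
    have e1 : A' = (fromBlocks 1 0 0 (A.toBlock (fun i => ¬ col i = κ) fun i => ¬ col i = κ)).submatrix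
        e.symm e.symm := by
      ext i j
      obtain ⟨i, rfl⟩ := e.surjective i
      obtain ⟨j, rfl⟩ := e.surjective j
      rw [submatrix_apply, e.symm_apply_apply, e.symm_apply_apply, hA', he]
      rcases i with i | i <;> rcases j with j | j
      · simp [i.2, one_apply, Subtype.ext_iff]
      · have : i.1 ≠ j.1 := fun h => j.2 (h ▸ i.2)
        simp [i.2, this]
      · simp [i.2, h1 i.1 j.1 (fun h => i.2 (h.trans j.2))]
      · simp [i.2, toBlock_apply]
    have e2 : A = (fromBlocks (A.toBlock (fun i => col i = κ) fun i => col i = κ) 0 0 1).submatrix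
        e.symm e.symm * A' := by
      rw [e1, submatrix_mul_equiv, fromBlocks_multiply]
      ext i j
      obtain ⟨i, rfl⟩ := e.surjective i
      obtain ⟨j, rfl⟩ := e.surjective j
      rw [submatrix_apply, e.symm_apply_apply, e.symm_apply_apply, he]
      rcases i with i | i <;> rcases j with j | j
      · simp [toBlock_apply]
      · simp [h1 i.1 j.1 (fun h => j.2 (h.symm.trans i.2))]
      · simp [h1 i.1 j.1 (fun h => i.2 (h.trans j.2))]
      · simp [toBlock_apply]
    have d := h0
    rw [e2, det_mul, mul_ne_zero_iff, det_submatrix_equiv_self, det_fromBlocks_zero₂₁, det_one,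
      mul_one] at d
    rw [e2]
    refine gen_mul (he ▸ gen_emb col κ _ d.1) (ih A' d.2 (fun i j h => ?_) fun i j h => ?_)
    · rw [hA', of_apply]
      split_ifs
      · exact one_apply_ne fun c => h (c ▸ rfl)
      · exact h1 i j h
    · rw [hA', of_apply]
      split_ifs with c
      · rfl
      · exact h2 i j (by simp [c, h])

theorem gc_gen {r : ℕ} {K : Type} (col : Fin r → K) (Q : Matrix (Fin r) (Fin r) ℂ → Prop)
    (hmul : ∀ A B, Gc col A → Gc col B → Q A → Q B → Q (A * B))
    (htr : ∀ i j, i ≠ j → col i = col j → ∀ s : ℂ, Q (transvection i j s))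
    (hdiag : ∀ d : Fin r → ℂ, ∏ i, d i = 1 → Q (diagonal d))
    {A : Matrix (Fin r) (Fin r) ℂ} (hA : Gc col A) : Q A := by
  classical
  obtain ⟨E, e1, d, -, e2⟩ := gen_all col (Finset.univ.image col) A (by rw [hA.1]; exact one_ne_zero)
    hA.2 fun i j h => absurd (Finset.mem_image_of_mem col (Finset.mem_univ i)) h
  have k : Gc col E ∧ Q E := by
    clear e2
    induction e1 using Submonoid.closure_induction with
    | mem x hx =>
      obtain ⟨i, j, s, h1, h2, rfl⟩ := hx
      refine ⟨⟨det_transvection_of_ne i j h1 s, fun a b h => ?_⟩, htr i j h1 h2 s⟩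
      have h3 : a ≠ b := fun c => h (c ▸ rfl)
      have h4 : ¬ (i = a ∧ j = b) := fun c => h (c.1 ▸ c.2 ▸ h2)
      simp [transvection, h3, single_apply, h4]
    | one =>
      exact ⟨⟨det_one, fun a b h => one_apply_ne fun c => h (c ▸ rfl)⟩,
        diagonal_one (n := Fin r) (α := ℂ) ▸ hdiag (fun _ => 1) (by simp)⟩
    | mul x y _ _ hx hy =>
      refine ⟨⟨by rw [det_mul, hx.1.1, hy.1.1, mul_one], fun a b h => ?_⟩,
        hmul x y hx.1 hy.1 hx.2 hy.2⟩
      rw [Matrix.mul_apply]
      refine Finset.sum_eq_zero fun c _ => ?_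
      by_cases h1 : col a = col c
      · rw [hy.1.2 c b (h1 ▸ h), mul_zero]
      · rw [hx.1.2 a c h1, zero_mul]
  have h1 : (diagonal d).det = 1 := by
    have := hA.1
    rwa [e2, det_mul, k.1.1, one_mul] at this
  rw [e2]
  exact hmul _ _ k.1 ⟨h1, fun a b h => diagonal_apply_ne _ fun c => h (c ▸ rfl)⟩ k.2
    (hdiag d (by rwa [det_diagonal] at h1))

end Vale.Agent.P002
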