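import Vale.Agent.P002.Base

namespace Vale.Agent.P002

open Matrix

/-- Laurent polynomial functions on the punctured plane -/
def GridLP (g : ℂ → ℂ) : Prop :=
  ∃ (n : ℕ) (q : Polynomial ℂ), ∀ v : ℂ, v ≠ 0 → g v * v ^ n = q.eval v

theorem GridLP.const (c : ℂ) : GridLP fun _ => c :=
  ⟨0, Polynomial.C c, fun v _ => by simp⟩

theorem GridLP.mul {g h : ℂ → ℂ} (hg : GridLP g) (hh : GridLP h) : GridLP fun v => g v * h v := by
  obtain ⟨n, q, hq⟩ := hg
  obtain ⟨m, s, hs⟩ := hh
  refine ⟨n + m, q * s, fun v hv => ?_⟩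
  rw [Polynomial.eval_mul, ← hq v hv, ← hs v hv]
  ring

theorem GridLP.add {g h : ℂ → ℂ} (hg : GridLP g) (hh : GridLP h) : GridLP fun v => g v + h v := by
  obtain ⟨n, q, hq⟩ := hg
  obtain ⟨m, s, hs⟩ := hh
  refine ⟨n + m, q * Polynomial.X ^ m + s * Polynomial.X ^ n, fun v hv => ?_⟩
  simp only [Polynomial.eval_add, Polynomial.eval_mul, Polynomial.eval_pow, Polynomial.eval_X]
  rw [← hq v hv, ← hs v hv]
  ring

theorem GridLP.zpow (k : ℤ) : GridLP fun v => v ^ k := by
  obtain ⟨m, rfl | rfl⟩ := Int.eq_nat_or_neg k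
  · exact ⟨0, Polynomial.X ^ m, fun v _ => by simp⟩
  · refine ⟨m, 1, fun v hv => ?_⟩
    simp only [_root_.zpow_neg, zpow_natCast, Polynomial.eval_one]
    exact inv_mul_cancel₀ (pow_ne_zero m hv)

theorem GridLP.comp {σ : Type} {f : (σ → ℂ) → ℂ} (hf : f ∈ PF σ) {γ : ℂ → σ → ℂ}
    (hγ : ∀ i, GridLP fun v => γ v i) : GridLP fun v => f (γ v) := by
  unfold PF at hf
  induction hf using Algebra.adjoin_induction with
  | mem x hx =>
    obtain ⟨i, rfl⟩ := hx
    exact hγ i
  | algebraMap c => exact GridLP.const c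
  | add x y _ _ hx hy => exact hx.add hy
  | mul x y _ _ hx hy => exact hx.mul hy

theorem GridLP.zero {g : ℂ → ℂ} (hg : GridLP g) {ε : ℂ} (hε : 1 < ‖ε‖)
    (h0 : ∀ k : ℕ, g (ε ^ k) = 0) {v : ℂ} (hv : v ≠ 0) : g v = 0 := by
  obtain ⟨n, q, hq⟩ := hg
  have hε0 : ε ≠ 0 := by
    rintro rfl
    rw [norm_zero] at hε
    linarith
  have hinj : Function.Injective fun k : ℕ => ε ^ k := by
    intro k l hkl
    have h1 : ‖ε‖ ^ k = ‖ε‖ ^ l := by
      rw [← norm_pow, ← norm_pow]
      exact congrArg _ hkl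
    exact (pow_right_strictMono₀ hε).injective h1
  have hq0 : q = 0 := by
    apply Polynomial.eq_zero_of_infinite_isRoot
    refine (Set.infinite_range_of_injective hinj).mono ?_
    rintro _ ⟨k, rfl⟩
    show q.eval (ε ^ k) = 0
    rw [← hq _ (pow_ne_zero k hε0), h0, zero_mul]
  have h1 := hq v hv
  rw [hq0, Polynomial.eval_zero] at h1
  exact (mul_eq_zero.1 h1).resolve_right (pow_ne_zero n hv)

theorem grid {σ β : Type} [Fintype β] (a : σ → ℂ) (w : σ → β → ℤ) {ε : ℂ} (hε : 1 < ‖ε‖)
    (u : β → ℂ) (hu : ∀ b, u b ≠ 0) :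
    cl {y | ∃ n : β → ℕ, y = fun i => a i * ∏ b, (ε ^ n b) ^ w i b}
      (fun i => a i * ∏ b, u b ^ w i b) := by
  classical
  intro f hf h0
  have key : ∀ s : Finset β, ∀ n : β → ℕ,
      f (fun i => a i * ∏ b, (if b ∈ s then u b else ε ^ n b) ^ w i b) = 0 := by
    intro s
    induction s using Finset.induction_on with
    | empty =>
      intro n
      simpa using h0 _ ⟨n, rfl⟩
    | insert b₀ s hb ih =>
      intro n
      have hsplit : ∀ (t : β → ℂ) (i : σ), ∏ b, t b ^ w i b =
          t b₀ ^ w i b₀ * ∏ b ∈ Finset.univ.erase b₀, t b ^ w i b := fun t i =>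
        (Finset.mul_prod_erase Finset.univ (fun b => t b ^ w i b) (Finset.mem_univ b₀)).symm
      have hLP : GridLP fun v => f (fun i => a i * (v ^ w i b₀ *
          ∏ b ∈ Finset.univ.erase b₀, (if b ∈ s then u b else ε ^ n b) ^ w i b)) :=
        GridLP.comp hf fun i =>
          (GridLP.const _).mul ((GridLP.zpow _).mul (GridLP.const _))
      have hz := hLP.zero hε (fun k => by
        have h1 := ih (Function.update n b₀ k)
        refine Eq.trans (congrArg f ?_) h1
        funext i
        rw [hsplit (fun b => if b ∈ s then u b else ε ^ Function.update n b₀ k b) i]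
        simp only [if_neg hb, Function.update_self]
        congr 2
        refine Finset.prod_congr rfl fun b hb' => ?_
        rw [Function.update_of_ne (Finset.ne_of_mem_erase hb')]) (hu b₀)
      refine Eq.trans (congrArg f ?_) hz
      funext i
      rw [hsplit (fun b => if b ∈ insert b₀ s then u b else ε ^ n b) i]
      simp only [Finset.mem_insert_self, if_true]
      congr 2
      refine Finset.prod_congr rfl fun b hb' => ?_
      simp only [Finset.mem_insert, Finset.ne_of_mem_erase hb', false_or]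
  simpa using key Finset.univ fun _ => 0

end Vale.Agent.P002
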