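import Vale.Agent.P002.Base

namespace Vale.Agent.P002

open Matrix

theorem simul {Γ : Type} [Group Γ] {r k : ℕ} (ρ : Γ →* SpecialLinearGroup (Fin r) ℂ)
    (hρ : Semisimple ρ) (z : Fin k → Γ) (hz : ∀ l g, z l * g = g * z l) :
    ∃ (P : Matrix (Fin r) (Fin r) ℂ) (d : Fin k → Fin r → ℂ), P.det = 1 ∧
      ∀ l, (ρ (z l)).1 = P * diagonal (d l) * P.adjugate := by
  classical
  rcases Nat.eq_zero_or_pos r with rfl | hr
  · exact ⟨1, fun _ _ => 0, by simp, fun l => Subsingleton.elim _ _⟩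
  have hcomm : ∀ l g, (ρ (z l)).1 * (ρ g).1 = (ρ g).1 * (ρ (z l)).1 := by
    intro l g
    have h : ρ (z l) * ρ g = ρ g * ρ (z l) := by rw [← map_mul, ← map_mul, hz]
    exact congrArg Subtype.val h
  set T : Fin k → Module.End ℂ (Fin r → ℂ) := fun l => Matrix.toLin' (ρ (z l)).1 with hT
  have hN : ∀ l (μ : ℂ) v, (T l - μ • (1 : Module.End ℂ (Fin r → ℂ))) v =
      (ρ (z l)).1 *ᵥ v - μ • v := by
    intro l μ v
    simp [hT]
  have step1 : ∀ l (μ : ℂ) v, (T l - μ • (1 : Module.End ℂ (Fin r → ℂ)))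
      ((T l - μ • (1 : Module.End ℂ (Fin r → ℂ))) v) = 0 →
      (T l - μ • (1 : Module.End ℂ (Fin r → ℂ))) v = 0 := by
    intro l μ v hv
    obtain ⟨W', hW', hc⟩ := hρ (LinearMap.ker (T l - μ • (1 : Module.End ℂ (Fin r → ℂ)))) (by
      intro g w hw
      rw [LinearMap.mem_ker, hN] at hw ⊢
      rw [mulVec_mulVec, hcomm, ← mulVec_mulVec, ← mulVec_smul, ← mulVec_sub, hw, mulVec_zero])
    have hv' : v ∈ LinearMap.ker (T l - μ • (1 : Module.End ℂ (Fin r → ℂ))) ⊔ W' := by
      rw [hc.sup_eq_top]; trivial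
    obtain ⟨w, hw, w', hw', rfl⟩ := Submodule.mem_sup.mp hv'
    have h1 : (T l - μ • (1 : Module.End ℂ (Fin r → ℂ))) (w + w') ∈ W' := by
      rw [map_add, LinearMap.mem_ker.mp hw, zero_add, hN]
      exact W'.sub_mem (hW' _ _ hw') (W'.smul_mem _ hw')
    exact (Submodule.disjoint_def.mp hc.disjoint) _ (LinearMap.mem_ker.mpr hv) h1
  have step2 : ∀ l (μ : ℂ) (n : ℕ) v, ((T l - μ • (1 : Module.End ℂ (Fin r → ℂ))) ^ n) v = 0 →
      (T l - μ • (1 : Module.End ℂ (Fin r → ℂ))) v = 0 := by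
    intro l μ n
    induction n with
    | zero => intro v hv; simp only [pow_zero, Module.End.one_apply] at hv; rw [hv, map_zero]
    | succ n ih =>
      intro v hv
      rw [pow_succ, Module.End.mul_apply] at hv
      exact step1 l μ v (ih _ hv)
  set S : Set (Fin r → ℂ) := {v | ∃ χ : Fin k → ℂ, ∀ l, (ρ (z l)).1 *ᵥ v = χ l • v} with hS
  have hspan : Submodule.span ℂ S = ⊤ := by
    have h := Module.End.iSup_iInf_maxGenEigenspace_eq_top_of_iSup_maxGenEigenspace_eq_top_of_commute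
      T (fun i j _ => by
        show T i * T j = T j * T i
        simp only [hT, Module.End.mul_eq_comp, ← Matrix.toLin'_mul, hcomm i (z j)])
      (fun i => Module.End.iSup_maxGenEigenspace_eq_top _)
    rw [eq_top_iff, ← h]
    refine iSup_le fun χ v hv => Submodule.subset_span ⟨χ, fun l => ?_⟩
    have h1 := (Submodule.mem_iInf _).mp hv l
    obtain ⟨n, hn⟩ := (Module.End.mem_maxGenEigenspace _ _ _).mp h1
    have h2 := step2 l (χ l) n v hn
    rw [hN] at h2
    exact sub_eq_zero.mp h2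
  obtain ⟨b, hbS, hbspan, hli⟩ := exists_linearIndependent ℂ S
  have hfin : b.Finite := hli.setFinite
  have _ : Fintype b := hfin.fintype
  let B : Module.Basis b ℂ (Fin r → ℂ) :=
    Module.Basis.mk hli (by rw [Subtype.range_coe_subtype, Set.ofPred_mem_eq, hbspan, hspan])
  have hcard : Fintype.card b = r := by
    rw [← Module.finrank_eq_card_basis B]; simp
  let e : Fin r ≃ b := (Fintype.equivFinOfCardEq hcard).symm
  choose χ hχ using fun j : Fin r => hbS (e j).2
  let P0 : Matrix (Fin r) (Fin r) ℂ := Matrix.of fun i j => (e j).1 i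
  have hP0 : P0.det ≠ 0 := by
    have : LinearIndependent ℂ P0.col := hli.comp e e.injective
    exact ((Matrix.isUnit_iff_isUnit_det _).mp
      (Matrix.linearIndependent_cols_iff_isUnit.mp this)).ne_zero
  have hmul : ∀ l, (ρ (z l)).1 * P0 = P0 * diagonal (fun j => χ j l) := by
    intro l
    ext i j
    have := congrFun (hχ j l) i
    rw [mul_diagonal]
    simp only [mulVec, dotProduct, Pi.smul_apply, smul_eq_mul] at this
    simp only [Matrix.mul_apply, P0, Matrix.of_apply, this, mul_comm]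
  obtain ⟨s, hs⟩ := IsAlgClosed.exists_pow_nat_eq (P0.det)⁻¹ hr
  have hdet : (s • P0).det = 1 := by
    rw [det_smul, Fintype.card_fin, hs, inv_mul_cancel₀ hP0]
  refine ⟨s • P0, fun l j => χ j l, hdet, fun l => ?_⟩
  have h1 : (ρ (z l)).1 * (s • P0) = (s • P0) * diagonal (fun j => χ j l) := by
    rw [Matrix.mul_smul, Matrix.smul_mul, hmul]
  rw [← h1, Matrix.mul_assoc, mul_adjugate, hdet, one_smul, Matrix.mul_one]

end Vale.Agent.P002
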