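import Vale.Agent.P002.ZW
import Vale.Agent.P002.Simul
import Vale.Agent.P002.Diag

namespace Vale.Agent.P002

open Matrix

theorem param_conj {r : ℕ} {P : Matrix (Fin r) (Fin r) ℂ} (hP : P.det = 1)
    (A : Matrix (Fin r) (Fin r) ℂ) : P.adjugate * (P * A * P.adjugate) * P = A := by
  have h2 : P.adjugate * P = 1 := by rw [adjugate_mul, hP, one_smul]
  calc P.adjugate * (P * A * P.adjugate) * P = (P.adjugate * P) * A * (P.adjugate * P) := by
        simp only [Matrix.mul_assoc]
    _ = A := by rw [h2, Matrix.one_mul, Matrix.mul_one]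

theorem param_mul {r : ℕ} {P : Matrix (Fin r) (Fin r) ℂ} (hP : P.det = 1)
    (A B : Matrix (Fin r) (Fin r) ℂ) :
    (P.adjugate * A * P) * (P.adjugate * B * P) = P.adjugate * (A * B) * P := by
  have h1 : P * P.adjugate = 1 := by rw [mul_adjugate, hP, one_smul]
  calc (P.adjugate * A * P) * (P.adjugate * B * P) =
        P.adjugate * A * (P * P.adjugate) * B * P := by simp only [Matrix.mul_assoc]
    _ = _ := by rw [h1, Matrix.mul_one]; simp only [Matrix.mul_assoc]

theorem param_pow {r : ℕ} {P : Matrix (Fin r) (Fin r) ℂ} (hP : P.det = 1)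
    (A : Matrix (Fin r) (Fin r) ℂ) (n : ℕ) :
    (P.adjugate * A * P) ^ n = P.adjugate * A ^ n * P := by
  induction n with
  | zero => rw [pow_zero, pow_zero, Matrix.mul_one, adjugate_mul, hP, one_smul]
  | succ n ih => rw [pow_succ, ih, param_mul hP, pow_succ]

theorem param {k m r : ℕ} {p : Fin m → ℕ} {c : Fin m → Fin k → ℤ} {T : Set (Fin k → ℤ)}
    (ρ : PresentedGroup (rels p c T) →* SpecialLinearGroup (Fin r) ℂ) (hρ : Semisimple ρ) :
    ∃ (col : Fin r → Fin r) (t : (Fin k ⊕ Fin m) × Fin r → ℂ)
      (G : Option (Fin m) → Fin r × Fin r → ℂ), (∀ x, t x ≠ 0) ∧ H p c T col t ∧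
      (Mx (G none)).det = 1 ∧ (∀ j, Gc col (Mx (G (some j)))) ∧
      ∀ g, (ρ (PresentedGroup.of g)).1 = mats p t G g := by
  classical
  have hrel : ∀ w ∈ rels p c T, PresentedGroup.mk (rels p c T) w = 1 :=
    fun w hw => PresentedGroup.one_of_mem hw
  have hcen : ∀ (l : Fin k) (g : PresentedGroup (rels p c T)),
      PresentedGroup.of (Sum.inl l) * g = g * PresentedGroup.of (Sum.inl l) := by
    intro l g
    have := PresentedGroup.generated_by (rels p c T)
      (Subgroup.centralizer {PresentedGroup.of (Sum.inl l)}) (fun j => by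
        rw [Subgroup.mem_centralizer_singleton_iff]
        have h := hrel _ (Or.inl ⟨l, j, rfl⟩)
        rw [map_mul, map_mul, map_mul, map_inv, map_inv, mul_inv_eq_one, mul_inv_eq_iff_eq_mul]
          at h
        exact h.symm) g
    exact (Subgroup.mem_centralizer_singleton_iff.1 this).symm
  obtain ⟨P, d, hP, hd⟩ := simul ρ hρ (fun l => PresentedGroup.of (Sum.inl l)) hcen
  let φ := ρ.comp (PresentedGroup.mk (rels p c T))
  obtain ⟨z1, z2, z3⟩ := zw_eval φ hP (d := d) hd
  have h1 : P * P.adjugate = 1 := by rw [mul_adjugate, hP, one_smul]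
  have h2 : P.adjugate * P = 1 := by rw [adjugate_mul, hP, one_smul]
  have hmul : ∀ a b, (ρ (a * b)).1 = (ρ a).1 * (ρ b).1 := fun a b => by
    rw [map_mul]; rfl
  have hpw : ∀ a (n : ℕ), (ρ (a ^ n)).1 = (ρ a).1 ^ n := fun a n => by
    rw [map_pow]; exact Matrix.SpecialLinearGroup.coe_pow _ _
  let tup : Fin r → Fin k → ℂ := fun i l => d l i
  let col : Fin r → Fin r := fun i => @Function.invFun _ _ ⟨i⟩ tup (tup i)
  have hcol : ∀ i i', col i = col i' ↔ tup i = tup i' := by
    intro i i'
    constructor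
    · intro h
      have a1 : tup (col i) = tup i := @Function.invFun_eq _ _ ⟨i⟩ tup _ ⟨i, rfl⟩
      have a2 : tup (col i') = tup i' := @Function.invFun_eq _ _ ⟨i'⟩ tup _ ⟨i', rfl⟩
      rw [← a1, ← a2, h]
    · intro h
      simp only [col, h]
  let Y : Fin m → Matrix (Fin r) (Fin r) ℂ := fun j =>
    P.adjugate * (ρ (PresentedGroup.of (Sum.inr j))).1 * P
  have hY : ∀ j, Gc col (Y j) := by
    intro j
    constructor
    · simp only [Y]
      rw [det_mul, det_mul, (ρ _).2, mul_one, ← det_mul, h2, det_one]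
    · intro i i' hne
      have : ∃ l, d l i ≠ d l i' := by
        by_contra hh
        simp only [not_exists, not_not] at hh
        exact hne ((hcol i i').2 (funext hh))
      obtain ⟨l, hl⟩ := this
      have e : diagonal (d l) * Y j = Y j * diagonal (d l) := by
        rw [← param_conj hP (diagonal (d l)), ← hd l]
        simp only [Y]
        rw [param_mul hP, param_mul hP, ← hmul, ← hmul, hcen]
      have e' := congrFun (congrFun e i) i'
      rw [diagonal_mul, mul_diagonal] at e'
      have : (d l i - d l i') * Y j i i' = 0 := by linear_combination e'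
      exact (mul_eq_zero.1 this).resolve_left (sub_ne_zero.2 hl)
  have hpow : ∀ j, Y j ^ p j = diagonal (fun i => ∏ l, d l i ^ c j l) := by
    intro j
    have h := hrel _ (Or.inr (Or.inl ⟨j, rfl⟩))
    rw [map_mul, map_inv, mul_inv_eq_one, map_pow] at h
    have h' : (ρ (PresentedGroup.of (Sum.inr j))).1 ^ p j = (φ (zw m (c j))).1 := by
      rw [← hpw]
      exact congrArg (fun g => (ρ g).1) h
    simp only [Y]
    rw [param_pow hP, h', z3, param_conj hP]
  have hblk : ∀ j, ∃ (g : Matrix (Fin r) (Fin r) ℂ) (e : Fin r → ℂ), Gc col g ∧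
      (∀ i, e i ≠ 0) ∧ ∏ i, e i = 1 ∧ (∀ i, e i ^ p j = ∏ l, d l i ^ c j l) ∧
      Y j = if p j = 0 then g else g * diagonal e * g.adjugate := by
    intro j
    by_cases hp : p j = 0
    · refine ⟨Y j, fun _ => 1, hY j, fun _ => one_ne_zero, by simp, fun i => ?_, by rw [if_pos hp]⟩
      have h := congrFun (congrFun (hpow j) i) i
      rw [hp, pow_zero, one_apply_eq, diagonal_apply_eq] at h
      rw [one_pow, h]
    · have h0 : ∀ i, ∏ l, d l i ^ c j l ≠ 0 := fun i =>
        Finset.prod_ne_zero_iff.2 fun l _ => zpow_ne_zero _ (z2 l i)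
      obtain ⟨g, e, a1, a2, a3, a4⟩ := diag_blk col (hY j) hp h0 (fun i i' h =>
        Finset.prod_congr rfl fun l _ => by
          have : d l i = d l i' := congrFun ((hcol i i').1 h) l
          rw [this]) (hpow j)
      refine ⟨g, e, a1, fun i hi => ?_, a3, a4, by rw [if_neg hp]; exact a2⟩
      have := a4 i
      rw [hi, zero_pow hp] at this
      exact h0 i this.symm
  choose g e b1 b2 b3 b4 b5 using hblk
  refine ⟨col, fun x => Sum.elim (fun l => d l x.2) (fun j => e j x.2) x.1,
    fun o => Option.elim o (ent P) (fun j => ent (g j)), ?_, ⟨?_, ?_, ?_, ?_⟩, hP, b1, ?_⟩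
  · rintro ⟨l | j, i⟩
    · exact z2 l i
    · exact b2 j i
  · intro l i i' h
    exact congrFun ((hcol i i').1 h) l
  · rintro (l | j)
    · exact z1 l
    · exact b3 j
  · exact b4
  · intro τ hτ i
    have h := hrel _ (Or.inr (Or.inr ⟨τ, hτ, rfl⟩))
    have h' : (φ (zw m τ)).1 = 1 := by
      have : φ (zw m τ) = 1 := by
        show ρ (PresentedGroup.mk _ (zw m τ)) = 1
        rw [h, map_one]
      rw [this]
      rfl
    have h3 := param_conj hP (diagonal fun i => ∏ l, d l i ^ τ l)
    rw [← z3, h', Matrix.mul_one, h2] at h3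
    have h4 := congrFun (congrFun h3 i) i
    rw [one_apply_eq, diagonal_apply_eq] at h4
    exact h4.symm
  · rintro (l | j)
    · exact hd l
    · show _ = P * (if p j = 0 then g j else g j * diagonal (e j) * (g j).adjugate) * P.adjugate
      rw [← b5 j]
      simp only [Y]
      calc (ρ (PresentedGroup.of (Sum.inr j))).1
          = (P * P.adjugate) * (ρ (PresentedGroup.of (Sum.inr j))).1 * (P * P.adjugate) := by
            rw [h1, Matrix.one_mul, Matrix.mul_one]
        _ = _ := by simp only [Matrix.mul_assoc]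

end Vale.Agent.P002
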