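import Vale.Agent.P002.Base

namespace Vale.Agent.P002

open Matrix

theorem slice_mem {α σ : Type} [DecidableEq α] {f : (α → σ → ℂ) → ℂ} (hf : f ∈ PF2 α σ)
    (y : α → σ → ℂ) (a : α) : (fun v : σ → ℂ => f (Function.update y a v)) ∈ PF σ := by
  induction hf using Algebra.adjoin_induction with
  | mem g hg =>
    obtain ⟨⟨b, i⟩, rfl⟩ := hg
    by_cases h : b = a
    · subst h
      simp only [Function.update_self]
      exact Algebra.subset_adjoin ⟨i, rfl⟩
    · simp only [Function.update_of_ne h]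
      exact (PF σ).algebraMap_mem (y b i)
  | algebraMap r => exact (PF σ).algebraMap_mem r
  | add g h _ _ hg hh => exact (PF σ).add_mem hg hh
  | mul g h _ _ hg hh => exact (PF σ).mul_mem hg hh

theorem pi_dense {α σ : Type} [Fintype α] (S : α → Set (σ → ℂ)) (x : α → σ → ℂ)
    (hx : ∀ a, cl (S a) (x a)) {f : (α → σ → ℂ) → ℂ} (hf : f ∈ PF2 α σ)
    (h0 : ∀ y : α → σ → ℂ, (∀ a, y a ∈ S a) → f y = 0) : f x = 0 := by
  classical
  have key : ∀ s : Finset α, ∀ y : α → σ → ℂ, (∀ a, a ∉ s → y a ∈ S a) →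
      (∀ a ∈ s, y a = x a) → f y = 0 := by
    intro s
    induction s using Finset.induction_on with
    | empty => exact fun y h1 _ => h0 y fun a => h1 a (Finset.notMem_empty a)
    | insert a s ha ih =>
      intro y h1 h2
      have h3 := hx a _ (slice_mem hf y a) fun v hv => by
        refine ih _ (fun b hb => ?_) (fun b hb => ?_)
        · by_cases hba : b = a
          · subst hba
            rwa [Function.update_self]
          · rw [Function.update_of_ne hba]
            exact h1 b (by simp [hba, hb])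
        · have hba : b ≠ a := fun h => ha (h ▸ hb)
          rw [Function.update_of_ne hba]
          exact h2 b (Finset.mem_insert_of_mem hb)
      rw [← h2 a (Finset.mem_insert_self a s)] at h3
      simpa using h3
  exact key Finset.univ x (fun a ha => absurd (Finset.mem_univ a) ha) fun _ _ => rfl

theorem field {e : ℕ} (he : 0 < e) : ∃ L : IntermediateField ℚ ℂ, FiniteDimensional ℚ L ∧
    ∃ (O : Subring ℂ) (ε : ℂ), Ar O ε ∧ (∀ x : ℂ, x ^ e = 1 → x ∈ O) ∧
      ∀ x ∈ O, x ∈ L ∧ IsIntegral ℤ x := by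
  set ε : ℂ := ((Real.goldenRatio : ℝ) : ℂ) with hε
  have hsq : ε ^ 2 = ε + 1 := by
    rw [hε]
    exact_mod_cast Real.goldenRatio_sq
  have hεi : IsIntegral ℤ ε := by
    refine ⟨Polynomial.X ^ 2 - Polynomial.X - 1, ?_, ?_⟩
    · monicity!
    · simp [hsq]
  have hri : ∀ x : ℂ, x ^ e = 1 → IsIntegral ℤ x := fun x hx =>
    IsIntegral.of_pow he (hx ▸ isIntegral_one)
  have hfin : ({x : ℂ | x ^ e = 1} ∪ {ε}).Finite := by
    refine Set.Finite.union ?_ (Set.finite_singleton ε)
    refine (Polynomial.nthRootsFinset e (1 : ℂ)).finite_toSet.subset fun x hx => ?_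
    exact (Polynomial.mem_nthRootsFinset he 1).2 hx
  have := hfin.to_subtype
  set L := IntermediateField.adjoin ℚ ({x : ℂ | x ^ e = 1} ∪ {ε}) with hL
  have hεL : ε ∈ L := IntermediateField.subset_adjoin _ _ (Or.inr rfl)
  have hinv : ε⁻¹ = ε - 1 := by
    refine inv_eq_of_mul_eq_one_right ?_
    linear_combination hsq
  refine ⟨L, IntermediateField.finiteDimensional_adjoin fun x hx => ?_,
    L.toSubalgebra.toSubring ⊓ (integralClosure ℤ ℂ).toSubring, ε, ⟨?_, ⟨hεL, hεi⟩, ?_⟩,
    fun x hx => ⟨IntermediateField.subset_adjoin _ _ (Or.inl hx), hri x hx⟩, fun x hx => hx⟩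
  · rcases hx with hx | hx
    · exact (hri x hx).tower_top
    · rw [Set.mem_singleton_iff.1 hx]
      exact hεi.tower_top
  · rw [hε, Complex.norm_real, Real.norm_eq_abs, abs_of_pos Real.goldenRatio_pos]
    exact Real.one_lt_goldenRatio
  · rw [hinv]
    exact Subring.sub_mem _ ⟨hεL, hεi⟩ (Subring.one_mem _)

end Vale.Agent.P002
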