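import Vale.Agent.P002.Base

namespace Vale.Agent.P002

open Matrix

/-- all entries lie in `S` -/
def RegMR {X : Type} {r : ℕ} (S : Subring (X → ℂ)) (M : X → Matrix (Fin r) (Fin r) ℂ) : Prop :=
  ∀ i j, (fun x => M x i j) ∈ S

theorem RegMR.mul {X : Type} {r : ℕ} {S : Subring (X → ℂ)} {A B : X → Matrix (Fin r) (Fin r) ℂ}
    (hA : RegMR S A) (hB : RegMR S B) : RegMR S fun x => A x * B x := by
  intro i j
  have h : (fun x => (A x * B x) i j) = ∑ l, (fun x => A x i l) * (fun x => B x l j) := by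
    funext x
    simp [Matrix.mul_apply]
  rw [h]
  exact S.sum_mem fun l _ => S.mul_mem (hA i l) (hB l j)

theorem reg_diag {X : Type} {r : ℕ} {S : Subring (X → ℂ)} {d : X → Fin r → ℂ}
    (hd : ∀ i, (fun x => d x i) ∈ S) : RegMR S fun x => diagonal (d x) := by
  intro i j
  by_cases h : i = j
  · subst h
    simpa using hd i
  · simp only [diagonal_apply_ne _ h]
    exact S.zero_mem

theorem RegMR.det {X : Type} {r : ℕ} {S : Subring (X → ℂ)} {A : X → Matrix (Fin r) (Fin r) ℂ}
    (hA : RegMR S A) : (fun x => (A x).det) ∈ S := by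
  have h : (fun x => (A x).det) = ∑ σ : Equiv.Perm (Fin r),
      (((Equiv.Perm.sign σ : ℤˣ) : ℤ) : X → ℂ) * ∏ i, (fun x => A x (σ i) i) := by
    funext x
    simp [Matrix.det_apply', Finset.prod_apply]
  rw [h]
  exact S.sum_mem fun σ _ => S.mul_mem (intCast_mem S _) (S.prod_mem fun i _ => hA _ _)

theorem RegMR.adj {X : Type} {r : ℕ} {S : Subring (X → ℂ)} {A : X → Matrix (Fin r) (Fin r) ℂ}
    (hA : RegMR S A) : RegMR S fun x => (A x).adjugate := by
  intro i j
  simp only [adjugate_apply]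
  refine RegMR.det fun a b => ?_
  by_cases h : a = j
  · subst h
    simp only [updateRow_self]
    by_cases hb : b = i
    · subst hb
      simp only [Pi.single_eq_same]
      exact S.one_mem
    · simp only [Pi.single_eq_of_ne hb]
      exact S.zero_mem
  · simp only [updateRow_ne h]
    exact hA a b

theorem reg_mats {k m r : ℕ} (p : Fin m → ℕ) {X : Type} (S : Subring (X → ℂ))
    (t : X → (Fin k ⊕ Fin m) × Fin r → ℂ) (G : X → Option (Fin m) → Fin r × Fin r → ℂ)
    (ht : ∀ a, (fun x => t x a) ∈ S) (hG : ∀ o a, (fun x => G x o a) ∈ S) (g : Fin k ⊕ Fin m) :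
    RegMR S fun x => mats p (t x) (G x) g := by
  have hM : ∀ o, RegMR S fun x => Mx (G x o) := fun o i j => hG o (i, j)
  rcases g with l | j
  · exact ((hM none).mul (reg_diag fun i => ht (Sum.inl l, i))).mul (hM none).adj
  · by_cases h : p j = 0
    · simp only [mats, if_pos h]
      exact ((hM none).mul (hM (some j))).mul (hM none).adj
    · simp only [mats, if_neg h]
      exact ((hM none).mul (((hM (some j)).mul (reg_diag fun i => ht (Sum.inr j, i))).mul
        (hM (some j)).adj)).mul (hM none).adj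

theorem reg {k m r : ℕ} (p : Fin m → ℕ) {X : Type} (R : Subalgebra ℂ (X → ℂ))
    (t : X → (Fin k ⊕ Fin m) × Fin r → ℂ) (G : X → Option (Fin m) → Fin r × Fin r → ℂ)
    (ht : ∀ a, (fun x => t x a) ∈ R) (hG : ∀ o a, (fun x => G x o a) ∈ R)
    (F : MvPolynomial ((Fin k ⊕ Fin m) × Fin r × Fin r) ℂ) :
    (fun x => MvPolynomial.eval (fun y => mats p (t x) (G x) y.1 y.2.1 y.2.2) F) ∈ R := by
  induction F using MvPolynomial.induction_on with
  | C a =>
    simp only [MvPolynomial.eval_C]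
    exact R.algebraMap_mem a
  | add F F' h h' =>
    simp only [map_add]
    exact R.add_mem h h'
  | mul_X F y h =>
    simp only [map_mul, MvPolynomial.eval_X]
    exact R.mul_mem h (reg_mats p R.toSubring t G ht hG y.1 y.2.1 y.2.2)

theorem mats_mem {k m r : ℕ} (p : Fin m → ℕ) (O : Subring ℂ)
    {t : (Fin k ⊕ Fin m) × Fin r → ℂ} {G : Option (Fin m) → Fin r × Fin r → ℂ}
    (ht : ∀ a, t a ∈ O) (hG : ∀ o a, G o a ∈ O) (g : Fin k ⊕ Fin m) (i j : Fin r) :
    mats p t G g i j ∈ O :=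
  reg_mats p (O.comap (Pi.evalRingHom (fun _ : Unit => ℂ) ())) (fun _ => t) (fun _ => G)
    ht hG g i j

theorem all_mem {α : Type} {rl : Set (FreeGroup α)} {r : ℕ} (O : Subring ℂ)
    (ρ : PresentedGroup rl →* SpecialLinearGroup (Fin r) ℂ)
    (h : ∀ g i j, (ρ (PresentedGroup.of g)).1 i j ∈ O) (γ : PresentedGroup rl) (i j : Fin r) :
    (ρ γ).1 i j ∈ O := by
  obtain ⟨Hs, hHs⟩ : ∃ Hs : Subgroup (SpecialLinearGroup (Fin r) ℂ),
      ∀ A, A ∈ Hs ↔ ∀ i j, A.1 i j ∈ O := by
    refine ⟨{ carrier := {A | ∀ i j, A.1 i j ∈ O}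
              mul_mem' := fun {A B} hA hB => ?_
              one_mem' := fun i j => ?_
              inv_mem' := fun {A} hA => ?_ }, fun _ => Iff.rfl⟩
    · exact RegMR.mul (S := O.comap (Pi.evalRingHom (fun _ : Unit => ℂ) ()))
        (A := fun _ => A.1) (B := fun _ => B.1) hA hB
    · show (1 : Matrix (Fin r) (Fin r) ℂ) i j ∈ O
      rw [Matrix.one_apply]
      split_ifs
      · exact O.one_mem
      · exact O.zero_mem
    · exact RegMR.adj (S := O.comap (Pi.evalRingHom (fun _ : Unit => ℂ) ()))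
        (A := fun _ => A.1) hA
  have h1 : γ ∈ Hs.comap ρ :=
    PresentedGroup.generated_by rl (Hs.comap ρ) (fun g => (hHs _).2 (h g)) γ
  exact (hHs _).1 h1 i j

end Vale.Agent.P002
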