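import Vale.Agent.P002.ZW

namespace Vale.Agent.P002

open Matrix

theorem rep_r {r : ℕ} {P : Matrix (Fin r) (Fin r) ℂ} (h : P.det = 1) : P * P.adjugate = 1 := by
  rw [mul_adjugate, h, one_smul]

theorem rep_l {r : ℕ} {P : Matrix (Fin r) (Fin r) ℂ} (h : P.det = 1) : P.adjugate * P = 1 := by
  rw [adjugate_mul, h, one_smul]

theorem rep_det {r : ℕ} {P X : Matrix (Fin r) (Fin r) ℂ} (h : P.det = 1) (hX : X.det = 1) :
    (P * X * P.adjugate).det = 1 := by
  have h1 : P.det * P.adjugate.det = 1 := by rw [← det_mul, rep_r h, det_one]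
  rw [det_mul, det_mul, hX, mul_one, h1]

theorem rep_mul {r : ℕ} {P : Matrix (Fin r) (Fin r) ℂ} (h : P.det = 1)
    (X Y : Matrix (Fin r) (Fin r) ℂ) :
    P * X * P.adjugate * (P * Y * P.adjugate) = P * (X * Y) * P.adjugate := by
  calc P * X * P.adjugate * (P * Y * P.adjugate)
      = P * X * (P.adjugate * P) * Y * P.adjugate := by simp only [Matrix.mul_assoc]
    _ = P * (X * Y) * P.adjugate := by rw [rep_l h]; simp only [Matrix.mul_assoc, Matrix.one_mul]

theorem rep_pow {r : ℕ} {P : Matrix (Fin r) (Fin r) ℂ} (h : P.det = 1)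
    (X : Matrix (Fin r) (Fin r) ℂ) (n : ℕ) :
    (P * X * P.adjugate) ^ n = P * X ^ n * P.adjugate := by
  induction n with
  | zero => rw [pow_zero, pow_zero, Matrix.mul_one, rep_r h]
  | succ n ih => rw [pow_succ, pow_succ, ih, rep_mul h]

theorem rep_comm {r : ℕ} {col : Fin r → Fin r} {A : Matrix (Fin r) (Fin r) ℂ} (hA : Gc col A)
    {d : Fin r → ℂ} (hd : ∀ i i', col i = col i' → d i = d i') : Commute (diagonal d) A := by
  ext i j
  rw [diagonal_mul, mul_diagonal]
  by_cases h : col i = col j
  · rw [hd i j h, mul_comm]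
  · rw [hA.2 i j h, mul_zero, zero_mul]

theorem rep_comm_adj {r : ℕ} {A D : Matrix (Fin r) (Fin r) ℂ} (h : A.det = 1)
    (hc : Commute D A) : Commute D A.adjugate := by
  calc D * A.adjugate = A.adjugate * A * D * A.adjugate := by rw [rep_l h, Matrix.one_mul]
    _ = A.adjugate * (A * D) * A.adjugate := by simp only [Matrix.mul_assoc]
    _ = A.adjugate * D * (A * A.adjugate) := by rw [← hc.eq]; simp only [Matrix.mul_assoc]
    _ = A.adjugate * D := by rw [rep_r h, Matrix.mul_one]

theorem rep_diag {r : ℕ} (d e : Fin r → ℂ) : Commute (diagonal d) (diagonal e) :=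
  commute_diagonal d e

theorem rep {k m r : ℕ} {p : Fin m → ℕ} {c : Fin m → Fin k → ℤ} {T : Set (Fin k → ℤ)}
    {col : Fin r → Fin r} {t : (Fin k ⊕ Fin m) × Fin r → ℂ}
    {G : Option (Fin m) → Fin r × Fin r → ℂ} (hH : H p c T col t)
    (h1 : (Mx (G none)).det = 1) (h2 : ∀ j, Gc col (Mx (G (some j)))) :
    ∃ ρ : PresentedGroup (rels p c T) →* SpecialLinearGroup (Fin r) ℂ,
      ∀ g, (ρ (PresentedGroup.of g)).1 = mats p t G g := by
  obtain ⟨H1, H2, H3, H4⟩ := hH
  let N : Fin k ⊕ Fin m → Matrix (Fin r) (Fin r) ℂ := fun g => match g with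
    | Sum.inl l => diagonal fun i => t (Sum.inl l, i)
    | Sum.inr j => if p j = 0 then Mx (G (some j)) else
      Mx (G (some j)) * diagonal (fun i => t (Sum.inr j, i)) * (Mx (G (some j))).adjugate
  have hN : ∀ g, mats p t G g = Mx (G none) * N g * (Mx (G none)).adjugate := by
    rintro (l | j) <;> rfl
  have hNdet : ∀ g, (N g).det = 1 := by
    rintro (l | j)
    · simp only [N]
      rw [det_diagonal, H2]
    · simp only [N]
      split_ifs
      · exact (h2 j).1
      · exact rep_det (h2 j).1 (by rw [det_diagonal, H2])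
  have hNc : ∀ (d : Fin r → ℂ), (∀ i i', col i = col i' → d i = d i') → ∀ g,
      Commute (diagonal d) (N g) := by
    rintro d hd (l | j)
    · exact rep_diag _ _
    · have hc := rep_comm (h2 j) hd
      simp only [N]
      split_ifs
      · exact hc
      · exact (hc.mul_right (rep_diag _ _)).mul_right (rep_comm_adj (h2 j).1 hc)
  let f : Fin k ⊕ Fin m → SpecialLinearGroup (Fin r) ℂ := fun g =>
    ⟨mats p t G g, by rw [hN]; exact rep_det h1 (hNdet g)⟩
  have hf : ∀ g, (f g).1 = Mx (G none) * N g * (Mx (G none)).adjugate := hN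
  have hz := (zw_eval (FreeGroup.lift f) h1 (d := fun l i => t (Sum.inl l, i))
    (fun l => by rw [FreeGroup.lift_apply_of]; rfl)).2.2
  have hrel : ∀ w ∈ rels p c T, FreeGroup.lift f w = 1 := by
    rintro w (⟨l, g, rfl⟩ | ⟨j, rfl⟩ | ⟨τ, hτ, rfl⟩)
    · simp only [map_mul, map_inv, FreeGroup.lift_apply_of]
      have hc : f (Sum.inl l) * f g = f g * f (Sum.inl l) := by
        apply Subtype.ext
        show (f (Sum.inl l)).1 * (f g).1 = (f g).1 * (f (Sum.inl l)).1
        rw [hf, hf, rep_mul h1, rep_mul h1]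
        exact congrArg (fun X => Mx (G none) * X * (Mx (G none)).adjugate) (hNc _ (H1 l) g).eq
      rw [hc]
      group
    · simp only [map_mul, map_inv, map_pow, FreeGroup.lift_apply_of]
      rw [mul_inv_eq_one]
      apply Subtype.ext
      refine (Matrix.SpecialLinearGroup.coe_pow (f (Sum.inr j)) (p j)).trans ?_
      rw [hz, hf, rep_pow h1]
      congr 2
      simp only [N]
      split_ifs with h0
      · rw [h0, pow_zero, ← diagonal_one]
        congr 1
        funext i
        rw [← H3, h0, pow_zero]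
      · have he : diagonal (fun i => t (Sum.inr j, i)) ^ p j =
            diagonal fun i => ∏ l, t (Sum.inl l, i) ^ c j l := by
          rw [diagonal_pow]
          congr 1
          funext i
          rw [← H3]
          rfl
        have hc := rep_comm (h2 j) (d := fun i => ∏ l, t (Sum.inl l, i) ^ c j l)
          fun i i' h => Finset.prod_congr rfl fun l _ => by rw [H1 l i i' h]
        rw [rep_pow (h2 j).1, he, ← hc.eq, Matrix.mul_assoc, rep_r (h2 j).1, Matrix.mul_one]
    · apply Subtype.ext
      have he : (diagonal fun i => ∏ l, t (Sum.inl l, i) ^ τ l) = 1 := by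
        rw [← diagonal_one]
        congr 1
        funext i
        exact H4 τ hτ i
      rw [hz, he, Matrix.mul_one, rep_r h1]
      rfl
  exact ⟨PresentedGroup.toGroup hrel, fun g => by rw [PresentedGroup.toGroup.of]⟩

end Vale.Agent.P002
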