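import Vale.Agent.P002.Grid
import Vale.Agent.P002.Gen

namespace Vale.Agent.P002

open Matrix

theorem sl_coord {σ : Type} (i : σ) : (fun x : σ → ℂ => x i) ∈ PF σ :=
  Algebra.subset_adjoin ⟨i, rfl⟩

theorem sl_comp {σ τ : Type} (φ : (τ → ℂ) → σ → ℂ) (hφ : ∀ i, (fun y => φ y i) ∈ PF τ)
    {f : (σ → ℂ) → ℂ} (hf : f ∈ PF σ) : (fun y => f (φ y)) ∈ PF τ := by
  induction hf using Algebra.adjoin_induction with
  | mem x hx =>
    obtain ⟨i, rfl⟩ := hx
    exact hφ i
  | algebraMap c => exact (PF τ).algebraMap_mem c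
  | add x y _ _ hx hy => exact (PF τ).add_mem hx hy
  | mul x y _ _ hx hy => exact (PF τ).mul_mem hx hy

theorem sl_poly {σ : Type} (γ : ℂ → σ → ℂ)
    (hγ : ∀ i, ∃ q : Polynomial ℂ, ∀ s, γ s i = q.eval s)
    {f : (σ → ℂ) → ℂ} (hf : f ∈ PF σ) : ∃ q : Polynomial ℂ, ∀ s, f (γ s) = q.eval s := by
  induction hf using Algebra.adjoin_induction with
  | mem x hx =>
    obtain ⟨i, rfl⟩ := hx
    exact hγ i
  | algebraMap c => exact ⟨Polynomial.C c, fun s => by simp⟩
  | add x y _ _ hx hy =>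
    obtain ⟨p, hp⟩ := hx
    obtain ⟨q, hq⟩ := hy
    exact ⟨p + q, fun s => by rw [Pi.add_apply, hp, hq, Polynomial.eval_add]⟩
  | mul x y _ _ hx hy =>
    obtain ⟨p, hp⟩ := hx
    obtain ⟨q, hq⟩ := hy
    exact ⟨p * q, fun s => by rw [Pi.mul_apply, hp, hq, Polynomial.eval_mul]⟩

theorem sl_left {r : ℕ} (C : Matrix (Fin r) (Fin r) ℂ) (a : Fin r × Fin r) :
    (fun y : Fin r × Fin r → ℂ => ent (C * Mx y) a) ∈ PF (Fin r × Fin r) := by
  have e : (fun y : Fin r × Fin r → ℂ => ent (C * Mx y) a) =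
      ∑ k, C a.1 k • (fun y : Fin r × Fin r → ℂ => y (k, a.2)) := by
    funext y
    simp [ent, Mx, Matrix.mul_apply, Finset.sum_apply]
  rw [e]
  exact Subalgebra.sum_mem _ fun k _ => Subalgebra.smul_mem _ (sl_coord _) _

theorem sl_right {r : ℕ} (C : Matrix (Fin r) (Fin r) ℂ) (a : Fin r × Fin r) :
    (fun y : Fin r × Fin r → ℂ => ent (Mx y * C) a) ∈ PF (Fin r × Fin r) := by
  have e : (fun y : Fin r × Fin r → ℂ => ent (Mx y * C) a) =
      ∑ k, C k a.2 • (fun y : Fin r × Fin r → ℂ => y (a.1, k)) := by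
    funext y
    simp [ent, Mx, Matrix.mul_apply, Finset.sum_apply, mul_comm]
  rw [e]
  exact Subalgebra.sum_mem _ fun k _ => Subalgebra.smul_mem _ (sl_coord _) _

theorem sl_gc_mul {r : ℕ} {K : Type} (col : Fin r → K) {A B : Matrix (Fin r) (Fin r) ℂ}
    (hA : Gc col A) (hB : Gc col B) : Gc col (A * B) := by
  refine ⟨by rw [det_mul, hA.1, hB.1, one_mul], fun i j hij => ?_⟩
  rw [Matrix.mul_apply]
  refine Finset.sum_eq_zero fun k _ => ?_
  by_cases h : col i = col k
  · rw [hB.2 k j (h ▸ hij), mul_zero]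
  · rw [hA.2 i k h, zero_mul]

theorem sl_diag_pt {r : ℕ} (i0 : Fin r) (u : Fin r → ℂ) (hu : ∀ b, u b ≠ 0) :
    (fun p : Fin r × Fin r => (if p.1 = p.2 then (1 : ℂ) else 0) *
      ∏ b, u b ^ ((if b = p.1 then (1 : ℤ) else 0) - (if p.1 = i0 then 1 else 0))) =
    ent (diagonal fun i => u i * if i = i0 then (∏ b, u b)⁻¹ else 1) := by
  funext p
  obtain ⟨i, j⟩ := p
  have e1 : ∏ b, u b ^ (if b = i then (1 : ℤ) else 0) = u i := by
    rw [Finset.prod_eq_single i]
    · simp
    · intro b _ hb; simp [hb]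
    · simp
  simp only [ent, diagonal_apply]
  by_cases hij : i = j
  · rw [if_pos hij, if_pos hij, one_mul]
    by_cases h0 : i = i0
    · simp only [if_pos h0]
      have : ∀ b, u b ^ ((if b = i then (1 : ℤ) else 0) - 1) =
          u b ^ (if b = i then (1 : ℤ) else 0) * (u b)⁻¹ := by
        intro b
        rw [zpow_sub₀ (hu b), zpow_one, div_eq_mul_inv]
      rw [Finset.prod_congr rfl fun b _ => this b, Finset.prod_mul_distrib, e1,
        Finset.prod_inv_distrib]
    · simp only [if_neg h0, sub_zero, mul_one]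
      exact e1
  · rw [if_neg hij, if_neg hij, zero_mul]

theorem sl_dense {r : ℕ} {K : Type} (col : Fin r → K) {O : Subring ℂ} {ε : ℂ} (hε : Ar O ε)
    {A : Matrix (Fin r) (Fin r) ℂ} (hA : Gc col A) :
    cl {y | Gc col (Mx y) ∧ ∀ a, y a ∈ O} (ent A) := by
  have hmulS : ∀ g y : Fin r × Fin r → ℂ, (Gc col (Mx g) ∧ ∀ a, g a ∈ O) →
      (Gc col (Mx y) ∧ ∀ a, y a ∈ O) →
      (Gc col (Mx (ent (Mx g * Mx y))) ∧ ∀ a, ent (Mx g * Mx y) a ∈ O) := by
    intro g y hg hy
    refine ⟨sl_gc_mul col hg.1 hy.1, fun a => ?_⟩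
    show (Mx g * Mx y) a.1 a.2 ∈ O
    rw [Matrix.mul_apply]
    exact Subring.sum_mem _ fun k _ => O.mul_mem (hg.2 _) (hy.2 _)
  refine gc_gen col (fun A => cl {y | Gc col (Mx y) ∧ ∀ a, y a ∈ O} (ent A)) ?_ ?_ ?_ hA
  · intro A B _ _ hQA hQB f hf h0
    refine hQA (fun y => f (ent (Mx y * B))) (sl_comp _ (sl_right B) hf) fun g hg => ?_
    exact hQB (fun y => f (ent (Mx g * Mx y))) (sl_comp _ (sl_left (Mx g)) hf)
      fun y hy => h0 _ (hmulS g y hg hy)
  · intro i j hij hc s f hf h0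
    obtain ⟨q, hq⟩ := sl_poly (fun s => ent (transvection i j s)) (fun a =>
      ⟨Polynomial.C ((1 : Matrix (Fin r) (Fin r) ℂ) a.1 a.2) +
        Polynomial.C (if i = a.1 ∧ j = a.2 then 1 else 0) * Polynomial.X, fun s => by
        by_cases h : i = a.1 ∧ j = a.2
        · simp [ent, transvection, Matrix.single, h]
        · simp [ent, transvection, Matrix.single, h]⟩) hf
    have hroot : ∀ n : ℕ, q.IsRoot (n : ℂ) := by
      intro n
      rw [Polynomial.IsRoot.def, ← hq]
      refine h0 _ ⟨⟨det_transvection_of_ne i j hij _, fun a b hab => ?_⟩, fun a => ?_⟩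
      · have h1 : a ≠ b := fun h => hab (h ▸ rfl)
        have h2 : ¬ (i = a ∧ j = b) := fun h => hab (h.1 ▸ h.2 ▸ hc)
        simp [Mx, ent, transvection, Matrix.single, Matrix.one_apply_ne h1, h2]
      · show ((1 : Matrix (Fin r) (Fin r) ℂ) + Matrix.single i j (n : ℂ)) a.1 a.2 ∈ O
        rw [Matrix.add_apply]
        refine O.add_mem ?_ ?_
        · rw [Matrix.one_apply]
          split_ifs
          · exact O.one_mem
          · exact O.zero_mem
        · show (if i = a.1 ∧ j = a.2 then (n : ℂ) else 0) ∈ O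
          split_ifs
          · exact natCast_mem O n
          · exact O.zero_mem
    have hq0 : q = 0 := Polynomial.eq_zero_of_infinite_isRoot q
      (Set.infinite_of_injective_forall_mem (f := fun n : ℕ => (n : ℂ)) Nat.cast_injective hroot)
    rw [hq, hq0, Polynomial.eval_zero]
  · intro d hd
    rcases Nat.eq_zero_or_pos r with h0 | hpos
    · subst h0
      intro f _ h0
      exact h0 _ ⟨⟨det_isEmpty, fun i => i.elim0⟩, fun a => a.1.elim0⟩
    · let i0 : Fin r := ⟨0, hpos⟩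
      have hd0 : ∀ b, d b ≠ 0 := fun b =>
        Finset.prod_ne_zero_iff.mp (by rw [hd]; exact one_ne_zero) b (Finset.mem_univ b)
      have hε0 : ε ≠ 0 := by
        intro h
        have := hε.lt
        rw [h, norm_zero] at this
        linarith
      have hg := grid (fun p : Fin r × Fin r => if p.1 = p.2 then (1 : ℂ) else 0)
        (fun p b => (if b = p.1 then (1 : ℤ) else 0) - (if p.1 = i0 then 1 else 0)) hε.lt d hd0
      rw [sl_diag_pt i0 d hd0, hd] at hg
      have e : (fun i => d i * if i = i0 then (1 : ℂ)⁻¹ else 1) = d := by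
        funext i; simp
      rw [e] at hg
      refine cl_mono ?_ hg
      rintro y ⟨n, rfl⟩
      have hu : ∀ b, ε ^ n b ≠ 0 := fun b => pow_ne_zero _ hε0
      rw [sl_diag_pt i0 (fun b => ε ^ n b) hu]
      refine ⟨⟨?_, fun a b hab => ?_⟩, fun a => ?_⟩
      · rw [Mx_ent, det_diagonal, Finset.prod_mul_distrib, Finset.prod_ite_eq']
        rw [if_pos (Finset.mem_univ _)]
        exact mul_inv_cancel₀ (Finset.prod_ne_zero_iff.mpr fun b _ => hu b)
      · rw [Mx_ent]
        exact diagonal_apply_ne _ fun h => hab (h ▸ rfl)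
      · show (diagonal fun i => ε ^ n i * if i = i0 then (∏ b, ε ^ n b)⁻¹ else 1) a.1 a.2 ∈ O
        rw [diagonal_apply]
        split_ifs
        · refine O.mul_mem (O.pow_mem hε.mem _) ?_
          rw [← Finset.prod_inv_distrib]
          refine Subring.prod_mem _ fun b _ => ?_
          rw [← inv_pow]
          exact O.pow_mem hε.inv _
        · exact O.mul_mem (O.pow_mem hε.mem _) O.one_mem
        · exact O.zero_mem

end Vale.Agent.P002
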