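import Vale.Agent.P002.Torus
import Vale.Agent.P002.PiF
import Vale.Agent.P002.SL
import Vale.Agent.P002.Param
import Vale.Agent.P002.Rep
import Vale.Agent.P002.Reg
import Vale.Agent.P002.Eqs

namespace Vale.Agent.P002

open Matrix

theorem const_mem {X : Type} (R : Subalgebra ℂ (X → ℂ)) (a : ℂ) : (fun _ : X => a) ∈ R :=
  R.algebraMap_mem a

theorem reg1 {k m r : ℕ} (p : Fin m → ℕ) (G : Option (Fin m) → Fin r × Fin r → ℂ)
    (F : MvPolynomial ((Fin k ⊕ Fin m) × Fin r × Fin r) ℂ) :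
    (fun t' => MvPolynomial.eval (fun y => mats p t' G y.1 y.2.1 y.2.2) F) ∈
      PF ((Fin k ⊕ Fin m) × Fin r) :=
  reg p (PF _) (fun x => x) (fun _ => G) (fun a => Algebra.subset_adjoin ⟨a, rfl⟩)
    (fun o a => const_mem _ (G o a)) F

theorem reg2 {k m r : ℕ} (p : Fin m → ℕ) (t : (Fin k ⊕ Fin m) × Fin r → ℂ)
    (F : MvPolynomial ((Fin k ⊕ Fin m) × Fin r × Fin r) ℂ) :
    (fun G' => MvPolynomial.eval (fun y => mats p t G' y.1 y.2.1 y.2.2) F) ∈
      PF2 (Option (Fin m)) (Fin r × Fin r) :=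
  reg p (PF2 _ _) (fun _ => t) (fun x => x) (fun a => const_mem _ (t a))
    (fun o a => Algebra.subset_adjoin ⟨(o, a), rfl⟩) F

theorem inner {k m r : ℕ} (p : Fin m → ℕ) (col : Fin r → Fin r) {O : Subring ℂ} {ε : ℂ}
    (hε : Ar O ε) (t : (Fin k ⊕ Fin m) × Fin r → ℂ) {G : Option (Fin m) → Fin r × Fin r → ℂ}
    (hG1 : (Mx (G none)).det = 1) (hG2 : ∀ j, Gc col (Mx (G (some j))))
    (F : MvPolynomial ((Fin k ⊕ Fin m) × Fin r × Fin r) ℂ)
    (h : ∀ G' : Option (Fin m) → Fin r × Fin r → ℂ, (Mx (G' none)).det = 1 →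
      (∀ j, Gc col (Mx (G' (some j)))) → (∀ o a, G' o a ∈ O) →
      MvPolynomial.eval (fun y => mats p t G' y.1 y.2.1 y.2.2) F = 0) :
    MvPolynomial.eval (fun y => mats p t G y.1 y.2.1 y.2.2) F = 0 := by
  let cc : Option (Fin m) → Fin r → Option (Fin r) := fun o i => o.map fun _ => col i
  have hcc : ∀ j A, Gc (cc (some j)) A ↔ Gc col A := by
    intro j A
    simp [Gc, cc]
  refine pi_dense (fun o => {y | Gc (cc o) (Mx y) ∧ ∀ a, y a ∈ O}) G ?_ (reg2 p t F) ?_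
  · intro o
    refine sl_dense (cc o) hε (A := Mx (G o)) ?_
    cases o with
    | none => exact ⟨hG1, fun i j h => absurd rfl h⟩
    | some j => exact (hcc j _).2 (hG2 j)
  · intro G' hG'
    exact h G' (hG' none).1.1 (fun j => (hcc j _).1 (hG' (some j)).1) fun o a => (hG' o).2 a

theorem zw_rho {k m r : ℕ} {p : Fin m → ℕ} {c : Fin m → Fin k → ℤ} {T : Set (Fin k → ℤ)}
    (ρ : PresentedGroup (rels p c T) →* SpecialLinearGroup (Fin r) ℂ)
    {t : (Fin k ⊕ Fin m) × Fin r → ℂ} {G : Option (Fin m) → Fin r × Fin r → ℂ}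
    (hG1 : (Mx (G none)).det = 1) (h : ∀ g, (ρ (PresentedGroup.of g)).1 = mats p t G g)
    (τ : Fin k → ℤ) : (ρ (PresentedGroup.mk _ (zw m τ))).1 =
      Mx (G none) * diagonal (fun i => ∏ l, t (Sum.inl l, i) ^ τ l) * (Mx (G none)).adjugate :=
  (zw_eval (ρ.comp (PresentedGroup.mk _)) hG1 (d := fun l i => t (Sum.inl l, i))
    (fun l => h (Sum.inl l))).2.2 τ

end Vale.Agent.P002
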