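import Vale.Agent.P002.Grid

namespace Vale.Agent.P002

open Matrix

theorem torus_hom {N : Type} [Fintype N] [DecidableEq N] (Ψ : (N → ℤ) →+ Additive ℂˣ) (μ : N → ℤ) :
    mono (fun i => ((Ψ (Pi.single i 1)).toMul : ℂˣ)) μ = ((Ψ μ).toMul : ℂˣ) := by
  conv_rhs => rw [← Finset.univ_sum_single μ, map_sum, toMul_sum, Units.coe_prod]
  refine Finset.prod_congr rfl fun x _ => ?_
  rw [show Pi.single x (μ x) = μ x • (Pi.single x 1 : N → ℤ) by rw [← Pi.single_smul]; simp,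
    map_zsmul, toMul_zsmul, Units.val_zpow_eq_zpow_val]

theorem torus_T {N : Type} [Fintype N] (t : N → ℂˣ) : ∃ T : (N → ℤ) →+ Additive ℂˣ,
    ∀ μ, ((T μ).toMul : ℂˣ) = ∏ x, (t x : ℂ) ^ μ x :=
  ⟨∑ x, (zmultiplesHom (Additive ℂˣ) (Additive.ofMul (t x))).comp (Pi.evalAddMonoidHom _ x),
    fun μ => by simp [toMul_sum]⟩

theorem torus_main {N A : Type} [Fintype N] [AddCommGroup A] (Λ : Set (N → ℤ)) (s e : ℕ)
    (he : ∀ τ : A, e • τ = 0)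
    (f : ((N → ℤ) ⧸ AddSubgroup.closure Λ) ≃+ (Fin s →₀ ℤ) × A) (O : Subring ℂ) (ε : ℂ)
    (hε : Ar O ε) (hO : ∀ x : ℂ, x ^ e = 1 → x ∈ O) (t : N → ℂ) (ht : ∀ i, t i ≠ 0)
    (hΛ : ∀ μ ∈ Λ, mono t μ = 1) :
    cl {t' | (∀ i, t' i ≠ 0 ∧ t' i ∈ O) ∧ (∀ μ ∈ Λ, mono t' μ = 1) ∧
      ∀ (μ : N → ℤ) (n : ℕ), 0 < n → n • μ ∈ Λ → mono t' μ = mono t μ} t := by
  classical
  obtain ⟨T, hT⟩ := torus_T fun x => Units.mk0 (t x) (ht x)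
  replace hT : ∀ μ, ((T μ).toMul : ℂˣ) = mono t μ := hT
  have hK : AddSubgroup.closure Λ ≤ T.ker := (AddSubgroup.closure_le _).2 fun μ hμ => by
    have := (hT μ).trans (hΛ μ hμ)
    exact toMul_eq_one.1 (Units.val_eq_one.1 this)
  obtain ⟨φ, hφ⟩ : ∃ φ : (N → ℤ) →+ (Fin s →₀ ℤ) × A,
    φ = f.toAddMonoidHom.comp (QuotientAddGroup.mk' _) := ⟨_, rfl⟩
  obtain ⟨χ, hχ⟩ : ∃ χ : (Fin s →₀ ℤ) × A →+ Additive ℂˣ, ∀ μ, χ (φ μ) = T μ :=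
    ⟨(QuotientAddGroup.lift _ T hK).comp f.symm.toAddMonoidHom, fun μ => by simp [hφ]⟩
  have φ0 : ∀ μ ∈ Λ, φ μ = 0 := fun μ hμ => by
    rw [hφ, AddMonoidHom.comp_apply, QuotientAddGroup.mk'_apply,
      (QuotientAddGroup.eq_zero_iff μ).2 (AddSubgroup.subset_closure hμ), map_zero]
  have G : ∀ v : Fin s → ℂˣ, ∃ Ψ : (N → ℤ) →+ Additive ℂˣ, ∀ μ, (((Ψ μ).toMul : ℂˣ) : ℂ) =
      ((χ (0, (φ μ).2)).toMul : ℂˣ) * ∏ b, (v b : ℂ) ^ (φ μ).1 b := fun v => by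
    obtain ⟨S, hS⟩ := torus_T v
    refine ⟨((χ.comp (AddMonoidHom.inr _ _)).comp (AddMonoidHom.snd _ _) +
      (S.comp Finsupp.coeFnAddHom).comp (AddMonoidHom.fst _ _)).comp φ, fun μ => ?_⟩
    simp [hS]
  have hu : ∀ μ, mono t μ = ((χ (0, (φ μ).2)).toMul : ℂˣ) *
      ∏ b, (((χ (Finsupp.single b 1, 0)).toMul : ℂˣ) : ℂ) ^ (φ μ).1 b := fun μ => by
    have e1 : φ μ = (0, (φ μ).2) + ∑ b, (φ μ).1 b • ((Finsupp.single b 1, 0) : (Fin s →₀ ℤ) × A) := by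
      refine Prod.ext ?_ ?_
      · simp [Prod.fst_sum, Finsupp.univ_sum_single]
      · simp [Prod.snd_sum]
    rw [← hT, ← hχ]
    conv_lhs => rw [e1]
    simp only [map_add, map_sum, map_zsmul, toMul_add, toMul_sum, toMul_zsmul, Units.val_mul,
      Units.coe_prod, Units.val_zpow_eq_zpow_val]
  have ε0 : ε ≠ 0 := fun h => by
    have := hε.lt
    rw [h, norm_zero] at this
    linarith
  have g := grid (fun i => (((χ (0, (φ (Pi.single i 1)).2)).toMul : ℂˣ) : ℂ))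
    (fun i b => (φ (Pi.single i 1)).1 b) hε.lt
    (fun b => (((χ (Finsupp.single b 1, 0)).toMul : ℂˣ) : ℂ)) fun b => Units.ne_zero _
  have et : t = fun i => (((χ (0, (φ (Pi.single i 1)).2)).toMul : ℂˣ) : ℂ) *
      ∏ b, (((χ (Finsupp.single b 1, 0)).toMul : ℂˣ) : ℂ) ^ (φ (Pi.single i 1)).1 b := by
    ext i
    rw [← hu, mono, Finset.prod_eq_single i (fun x _ hx => by simp [hx]) (by simp)]
    simp
  rw [← et] at g
  refine cl_mono ?_ g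
  rintro y ⟨n, hy⟩
  obtain ⟨Ψ, hΨ⟩ := G fun b => Units.mk0 (ε ^ n b) (pow_ne_zero _ ε0)
  have ey : y = fun i => (((Ψ (Pi.single i 1)).toMul : ℂˣ) : ℂ) := by
    ext i
    rw [hΨ, hy]
    rfl
  refine ⟨fun i => ⟨by rw [ey]; exact Units.ne_zero _, ?_⟩, fun μ hμ => ?_, fun μ k hk hμ => ?_⟩
  · rw [hy]
    refine O.mul_mem (hO _ ?_) (O.prod_mem fun b _ => ?_)
    · rw [← Units.val_pow_eq_pow_val, ← toMul_nsmul, ← map_nsmul, Prod.smul_mk, he, smul_zero]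
      simp [Prod.mk_zero_zero]
    · rcases Int.eq_nat_or_neg ((φ (Pi.single i 1)).1 b) with ⟨m, h | h⟩ <;> rw [h]
      · rw [zpow_natCast]
        exact O.pow_mem (O.pow_mem hε.mem _) _
      · rw [_root_.zpow_neg, zpow_natCast, ← inv_pow, ← inv_pow]
        exact O.pow_mem (O.pow_mem hε.inv _) _
  · rw [ey, torus_hom, hΨ, φ0 μ hμ]
    simp [Prod.mk_zero_zero]
  · have h1 := congrArg Prod.fst (φ0 _ hμ)
    rw [map_nsmul, Prod.smul_fst, Prod.fst_zero, smul_eq_zero_iff_right hk.ne'] at h1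
    rw [ey, torus_hom, hΨ, hu, h1]
    simp

theorem torus {N : Type} [Fintype N] (Λ : Set (N → ℤ)) :
    ∃ e : ℕ, 0 < e ∧ ∀ (O : Subring ℂ) (ε : ℂ), Ar O ε → (∀ x : ℂ, x ^ e = 1 → x ∈ O) →
      ∀ t : N → ℂ, (∀ i, t i ≠ 0) → (∀ μ ∈ Λ, mono t μ = 1) →
        cl {t' | (∀ i, t' i ≠ 0 ∧ t' i ∈ O) ∧ (∀ μ ∈ Λ, mono t' μ = 1) ∧
          ∀ (μ : N → ℤ) (n : ℕ), 0 < n → n • μ ∈ Λ → mono t' μ = mono t μ} t := by
  classical
  obtain ⟨s, ι, _, p, hp, e, ⟨f⟩⟩ :=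
    AddCommGroup.equiv_free_prod_directSum_zmod ((N → ℤ) ⧸ AddSubgroup.closure Λ)
  refine ⟨∏ i, p i ^ e i, Finset.prod_pos fun i _ => pow_pos (hp i).pos _,
    torus_main Λ s _ (fun τ => ?_) f⟩
  refine DFinsupp.ext fun i => ?_
  rw [DFinsupp.smul_apply, nsmul_eq_mul,
    (ZMod.natCast_eq_zero_iff _ _).2 (Finset.dvd_prod_of_mem _ (Finset.mem_univ i)), zero_mul]
  rfl

end Vale.Agent.P002
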