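import Vale.Agent.P002.Base

namespace Vale.Agent.P002

open Matrix

theorem zw_adj1 {r : ℕ} {P : Matrix (Fin r) (Fin r) ℂ} (hP : P.det = 1) : P.adjugate * P = 1 := by
  rw [adjugate_mul, hP, one_smul]

theorem zw_adj2 {r : ℕ} {P : Matrix (Fin r) (Fin r) ℂ} (hP : P.det = 1) : P * P.adjugate = 1 := by
  rw [mul_adjugate, hP, one_smul]

theorem zw_mul {r : ℕ} {P : Matrix (Fin r) (Fin r) ℂ} (hP : P.det = 1) (e e' : Fin r → ℂ) :
    P * diagonal e * P.adjugate * (P * diagonal e' * P.adjugate) =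
      P * diagonal (fun i => e i * e' i) * P.adjugate := by
  rw [← diagonal_mul_diagonal]
  calc _ = P * diagonal e * (P.adjugate * P) * diagonal e' * P.adjugate := by
        simp only [mul_assoc]
    _ = _ := by rw [zw_adj1 hP]; simp only [mul_assoc, one_mul]

theorem zw_one {r : ℕ} {P : Matrix (Fin r) (Fin r) ℂ} (hP : P.det = 1) :
    P * diagonal (fun _ => (1 : ℂ)) * P.adjugate = 1 := by
  rw [diagonal_one, mul_one, zw_adj2 hP]

theorem zw_det {r : ℕ} {P : Matrix (Fin r) (Fin r) ℂ} (hP : P.det = 1) (e : Fin r → ℂ) :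
    (P * diagonal e * P.adjugate).det = ∏ i, e i := by
  have h1 := congrArg det (zw_adj1 hP)
  rw [det_mul, hP, mul_one, det_one] at h1
  rw [det_mul, det_mul, hP, h1, det_diagonal, one_mul, mul_one]

theorem zw_zpow {r : ℕ} {P : Matrix (Fin r) (Fin r) ℂ} (hP : P.det = 1) {e : Fin r → ℂ}
    (he : ∀ i, e i ≠ 0) {A : SpecialLinearGroup (Fin r) ℂ}
    (hA : A.1 = P * diagonal e * P.adjugate) (n : ℤ) :
    (A ^ n).1 = P * diagonal (fun i => e i ^ n) * P.adjugate := by
  have h1 : ∀ n : ℕ, (A ^ n).1 = P * diagonal (fun i => e i ^ n) * P.adjugate := by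
    intro n
    induction n with
    | zero => simp only [pow_zero]; rw [zw_one hP]; rfl
    | succ n ih =>
      have h2 : (A ^ (n + 1)).1 = (A ^ n).1 * A.1 := by rw [pow_succ]; rfl
      rw [h2, ih, hA, zw_mul hP]
      simp only [pow_succ]
  cases n with
  | ofNat n => simpa using h1 n
  | negSucc n =>
    simp only [zpow_negSucc]
    have h2 : (A ^ (n + 1)).1 * (P * diagonal (fun i => (e i ^ (n + 1))⁻¹) * P.adjugate) = 1 := by
      rw [h1, zw_mul hP, ← zw_one hP]
      congr 3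
      ext i
      exact mul_inv_cancel₀ (pow_ne_zero _ (he i))
    have h3 : ((A ^ (n + 1))⁻¹).1 * (A ^ (n + 1)).1 = 1 := by
      have := congrArg Subtype.val (inv_mul_cancel (A ^ (n + 1)))
      exact this
    calc ((A ^ (n + 1))⁻¹).1 = ((A ^ (n + 1))⁻¹).1 * ((A ^ (n + 1)).1 *
          (P * diagonal (fun i => (e i ^ (n + 1))⁻¹) * P.adjugate)) := by rw [h2, mul_one]
      _ = _ := by rw [← mul_assoc, h3, one_mul]

theorem zw_eval {k m r : ℕ} (φ : FreeGroup (Fin k ⊕ Fin m) →* SpecialLinearGroup (Fin r) ℂ)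
    {P : Matrix (Fin r) (Fin r) ℂ} (hP : P.det = 1) {d : Fin k → Fin r → ℂ}
    (h : ∀ l, (φ (FreeGroup.of (Sum.inl l))).1 = P * diagonal (d l) * P.adjugate) :
    (∀ l, ∏ i, d l i = 1) ∧ (∀ l i, d l i ≠ 0) ∧
      ∀ τ : Fin k → ℤ,
        (φ (zw m τ)).1 = P * diagonal (fun i => ∏ l, d l i ^ τ l) * P.adjugate := by
  have h1 : ∀ l, ∏ i, d l i = 1 := fun l => by
    rw [← zw_det hP, ← h l]
    exact (φ (FreeGroup.of (Sum.inl l))).2
  have h2 : ∀ l i, d l i ≠ 0 := fun l i h0 => by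
    have := h1 l
    rw [Finset.prod_eq_zero (Finset.mem_univ i) h0] at this
    exact zero_ne_one this
  refine ⟨h1, h2, fun τ => ?_⟩
  have h3 : ∀ L : List (Fin k),
      (φ (L.map fun l => FreeGroup.of (Sum.inl l : Fin k ⊕ Fin m) ^ τ l).prod).1 =
        P * diagonal (fun i => (L.map fun l => d l i ^ τ l).prod) * P.adjugate := by
    intro L
    induction L with
    | nil =>
      simp only [List.map_nil, List.prod_nil, map_one]
      rw [zw_one hP]; rfl
    | cons l L ih =>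
      simp only [List.map_cons, List.prod_cons, map_mul, map_zpow]
      rw [← zw_mul hP, ← ih, ← zw_zpow hP (h2 l) (h l)]
      rfl
  simp only [zw, List.ofFn_eq_map, Fin.prod_univ_def]
  exact h3 _

theorem conj_of {r : ℕ} {A B : SpecialLinearGroup (Fin r) ℂ} {P Q : Matrix (Fin r) (Fin r) ℂ}
    (hP : P.det = 1) (hQ : Q.det = 1) {d : Fin r → ℂ} (hA : A.1 = P * diagonal d * P.adjugate)
    (hB : B.1 = Q * diagonal d * Q.adjugate) : IsConj A B := by
  let p : SpecialLinearGroup (Fin r) ℂ := ⟨P, hP⟩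
  let q : SpecialLinearGroup (Fin r) ℂ := ⟨Q, hQ⟩
  refine isConj_iff.2 ⟨q * p⁻¹, ?_⟩
  rw [_root_.mul_inv_rev, inv_inv]
  refine Subtype.ext ?_
  show Q * P.adjugate * A.1 * (P * Q.adjugate) = B.1
  rw [hA, hB]
  calc _ = Q * (P.adjugate * P) * diagonal d * (P.adjugate * P) * Q.adjugate := by
        simp only [mul_assoc]
    _ = _ := by rw [zw_adj1 hP]; simp only [mul_one]

theorem quasi {r q : ℕ} (C : Fin q → SpecialLinearGroup (Fin r) ℂ) (hC : ∀ a, QuasiUnip (C a)) :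
    ∃ N : ℕ, 0 < N ∧ ∀ (a : Fin q) (A : SpecialLinearGroup (Fin r) ℂ)
      (P : Matrix (Fin r) (Fin r) ℂ) (d : Fin r → ℂ), P.det = 1 →
      A.1 = P * diagonal d * P.adjugate → IsConj (C a) A → ∀ i, d i ^ N = 1 := by
  classical
  have h1 : ∀ a μ, ∃ n : ℕ, 0 < n ∧ ((C a).1.charpoly.IsRoot μ → μ ^ n = 1) := fun a μ => by
    by_cases h : (C a).1.charpoly.IsRoot μ
    · obtain ⟨n, h1, h2⟩ := hC a μ h
      exact ⟨n, h1, fun _ => h2⟩
    · exact ⟨1, one_pos, fun h' => absurd h' h⟩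
  choose n hn hn' using h1
  refine ⟨∏ a, ∏ μ ∈ (C a).1.charpoly.roots.toFinset, n a μ,
    Finset.prod_pos fun a _ => Finset.prod_pos fun μ _ => hn a μ, ?_⟩
  intro a A P d hP hA hc i
  obtain ⟨c, hc⟩ := isConj_iff.1 hc
  have h2 : c.1 * (C a).1 * c.1.adjugate = P * diagonal d * P.adjugate := by
    rw [← hA, ← hc]; rfl
  have h3 : (C a).1.charpoly.IsRoot (d i) := by
    rw [Polynomial.IsRoot.def, eval_charpoly]
    have h4 : c.1 * (scalar (Fin r) (d i) - (C a).1) * c.1.adjugate =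
        P * diagonal (fun j => d i - d j) * P.adjugate := by
      have h5 : ∀ R : Matrix (Fin r) (Fin r) ℂ, R.det = 1 →
          R * scalar (Fin r) (d i) * R.adjugate = scalar (Fin r) (d i) := fun R hR => by
        rw [← (scalar_commute (d i) (fun _ => mul_comm _ _) R).eq, mul_assoc, zw_adj2 hR, mul_one]
      rw [mul_sub, sub_mul, h2, h5 _ c.2, ← diagonal_sub, mul_sub, sub_mul, ← h5 P hP]
      rfl
    have h5 := congrArg det h4
    have h6 := congrArg det (zw_adj1 c.2)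
    rw [det_mul, c.2, mul_one, det_one] at h6
    rw [zw_det hP, det_mul, det_mul, c.2, h6, one_mul, mul_one] at h5
    rw [h5]
    exact Finset.prod_eq_zero (Finset.mem_univ i) (sub_self _)
  have h4 : n a (d i) ∣ ∏ a, ∏ μ ∈ (C a).1.charpoly.roots.toFinset, n a μ :=
    (Finset.dvd_prod_of_mem _ (Multiset.mem_toFinset.2
      ((Polynomial.mem_roots (charpoly_monic _).ne_zero).2 h3))).trans
      (Finset.dvd_prod_of_mem (fun a => ∏ μ ∈ (C a).1.charpoly.roots.toFinset, n a μ)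
        (Finset.mem_univ a))
  obtain ⟨t, ht⟩ := h4
  rw [ht, pow_mul, hn' a _ h3, one_pow]

end Vale.Agent.P002
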